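import Mathlib

/-!
# A Tauberian theorem with a power saving

`tau_gen`: nonnegative coefficients `b k`, Dirichlet series absolutely convergent at `3/2`, and
`D(s) - V/(s-1)` continued to `3/5 < Re s` with polynomial growth (exponent `A`), imply
`sum_{k <= x} b k = V x + O(x^(1-dl))`.
Proof: Mellin inversion for `(1-u)_+^(A+1)`, contour shift to `Re s = 3/4`, unsmoothing.
-/

namespace Vale.Agent.P004H.H924

section kernel

open Complex MeasureTheory Set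

/-- the test function -/
noncomputable def phi (m : ℕ) (u : ℝ) : ℂ := ((max (1 - u) 0 : ℝ) : ℂ) ^ m

/-- its Mellin transform -/
noncomputable def bet (m : ℕ) (s : ℂ) : ℂ := (m.factorial : ℂ) / ∏ j ∈ Finset.range (m + 1), (s + j)

theorem phi_cont (m : ℕ) : Continuous (phi m) := by
  unfold phi
  fun_prop

theorem phi_zero {m : ℕ} (hm : m ≠ 0) {u : ℝ} (hu : 1 ≤ u) : phi m u = 0 := by
  unfold phi
  rw [max_eq_right (by linarith)]
  simp [hm]

theorem phi_of_le {m : ℕ} {u : ℝ} (hu : u ≤ 1) : phi m u = (1 - (u : ℂ)) ^ m := by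
  unfold phi
  rw [max_eq_left (by linarith)]
  push_cast
  rfl

theorem phi_mellin_aux {m : ℕ} (hm : m ≠ 0) (s : ℂ) :
    EqOn (fun t : ℝ => (t : ℂ) ^ (s - 1) • phi m t)
      ((Ioc (0 : ℝ) 1).indicator fun x : ℝ => (x : ℂ) ^ (s - 1) * (1 - (x : ℂ)) ^ (((m : ℂ) + 1) - 1))
      (Ioi 0) := by
  intro t ht
  by_cases h1 : t ≤ 1
  · rw [indicator_of_mem (show t ∈ Ioc (0 : ℝ) 1 from ⟨ht, h1⟩)]
    simp only [smul_eq_mul]
    rw [phi_of_le h1, add_sub_cancel_right, cpow_natCast]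
  · rw [indicator_of_notMem (fun h => h1 h.2)]
    simp only [smul_eq_mul]
    rw [phi_zero hm (not_le.1 h1).le, mul_zero]

theorem phi_conv {m : ℕ} (hm : m ≠ 0) {s : ℂ} (hs : 0 < s.re) : MellinConvergent (phi m) s := by
  unfold MellinConvergent
  rw [integrableOn_congr_fun (phi_mellin_aux hm s) measurableSet_Ioi]
  have h := betaIntegral_convergent (u := s) (v := (m : ℂ) + 1) hs (by simp; positivity)
  rw [intervalIntegrable_iff_integrableOn_Ioc_of_le zero_le_one] at h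
  exact (h.integrable_indicator measurableSet_Ioc).integrableOn

theorem phi_mellin {m : ℕ} (hm : m ≠ 0) {s : ℂ} (hs : 0 < s.re) : mellin (phi m) s = bet m s := by
  unfold mellin
  rw [setIntegral_congr_fun measurableSet_Ioi (phi_mellin_aux hm s),
    setIntegral_indicator measurableSet_Ioc]
  have : Ioi (0 : ℝ) ∩ Ioc 0 1 = Ioc 0 1 := by
    ext x; simp
  rw [this, ← intervalIntegral.integral_of_le zero_le_one]
  exact betaIntegral_eval_nat_add_one_right hs m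

theorem bet_norm (m : ℕ) {s : ℂ} (hs : 0 < s.re) : ‖bet m s‖ ≤ m.factorial / ‖s‖ ^ (m + 1) := by
  have hs0 : 0 < ‖s‖ := lt_of_lt_of_le hs (re_le_norm s)
  unfold bet
  rw [norm_div, norm_natCast, norm_prod]
  apply div_le_div_of_nonneg_left (by positivity) (by positivity)
  calc ‖s‖ ^ (m + 1) = ∏ j ∈ Finset.range (m + 1), ‖s‖ := by simp
    _ ≤ ∏ j ∈ Finset.range (m + 1), ‖s + j‖ := by
      apply Finset.prod_le_prod
      · intros; positivity
      · intro j _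
        rw [Complex.norm_def, Complex.norm_def]
        apply Real.sqrt_le_sqrt
        simp only [normSq_apply, add_re, natCast_re, add_im, natCast_im, add_zero]
        have : (0 : ℝ) ≤ j := by positivity
        nlinarith

theorem bet_diff (m : ℕ) : DifferentiableOn ℂ (bet m) {s | 0 < s.re} := by
  unfold bet
  apply DifferentiableOn.div (by fun_prop) (by fun_prop)
  intro s hs
  rw [Finset.prod_ne_zero_iff]
  intro j _ h
  have h2 : s.re + j = 0 := by simpa using congrArg Complex.re h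
  have : (0 : ℝ) ≤ j := by positivity
  have hs' : 0 < s.re := hs
  linarith

theorem line_re (σ y : ℝ) : ((σ : ℂ) + y * I).re = σ := by simp

theorem line_im (σ y : ℝ) : ((σ : ℂ) + y * I).im = y := by simp

theorem line_norm_sq (σ y : ℝ) : ‖(σ : ℂ) + y * I‖ ^ 2 = σ ^ 2 + y ^ 2 := by
  rw [← normSq_eq_norm_sq, normSq_apply, line_re, line_im]
  ring

theorem line_cont (σ : ℝ) {f : ℂ → ℂ} {S : Set ℂ} (hf : ContinuousOn f S)
    (hS : ∀ y : ℝ, (σ : ℂ) + y * I ∈ S) : Continuous fun y : ℝ => f ((σ : ℂ) + y * I) := by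
  apply hf.comp_continuous (by fun_prop) hS

/-- the basic integrability statement on a vertical line -/
theorem line_int {σ : ℝ} (hσ : 0 < σ) {f : ℂ → ℂ}
    (hc : Continuous fun y : ℝ => f ((σ : ℂ) + y * I)) {C : ℝ}
    (hb : ∀ y : ℝ, ‖f ((σ : ℂ) + y * I)‖ ≤ C / ‖(σ : ℂ) + y * I‖ ^ 2) :
    Integrable fun y : ℝ => f ((σ : ℂ) + y * I) := by
  have h1 : Integrable fun y : ℝ => |C| * ((1 + σ⁻¹ ^ 2) * (1 + y ^ 2)⁻¹) :=
    (integrable_inv_one_add_sq.const_mul _).const_mul _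
  refine h1.mono' hc.aestronglyMeasurable (Filter.Eventually.of_forall fun y => ?_)
  refine (hb y).trans ?_
  rw [line_norm_sq, div_eq_mul_inv]
  have hpos : 0 < σ ^ 2 + y ^ 2 := by positivity
  have : (σ ^ 2 + y ^ 2)⁻¹ ≤ (1 + σ⁻¹ ^ 2) * (1 + y ^ 2)⁻¹ := by
    rw [inv_le_iff_one_le_mul₀ hpos, ← div_eq_mul_inv, div_mul_eq_mul_div, one_le_div (by positivity)]
    have : σ⁻¹ ^ 2 * σ ^ 2 = 1 := by rw [← mul_pow, inv_mul_cancel₀ hσ.ne', one_pow]
    have h3 : 0 ≤ σ⁻¹ ^ 2 * y ^ 2 := by positivity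
    nlinarith [sq_nonneg σ]
  calc C * (σ ^ 2 + y ^ 2)⁻¹ ≤ |C| * (σ ^ 2 + y ^ 2)⁻¹ := by
        apply mul_le_mul_of_nonneg_right (le_abs_self C) (by positivity)
    _ ≤ _ := by
        apply mul_le_mul_of_nonneg_left this (abs_nonneg C)

theorem bet_line_bound {m : ℕ} (hm : m ≠ 0) {σ : ℝ} (hσ : 0 < σ) (y : ℝ) :
    ‖bet m ((σ : ℂ) + y * I)‖ ≤ (m.factorial * (σ⁻¹) ^ (m - 1)) / ‖(σ : ℂ) + y * I‖ ^ 2 := by
  have hre : 0 < ((σ : ℂ) + y * I).re := by rw [line_re]; exact hσ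
  refine (bet_norm m hre).trans ?_
  have h0 : σ ≤ ‖(σ : ℂ) + y * I‖ := by
    have := re_le_norm ((σ : ℂ) + y * I)
    rwa [line_re] at this
  have h1 : 0 < ‖(σ : ℂ) + y * I‖ := lt_of_lt_of_le hσ h0
  obtain ⟨k, rfl⟩ := Nat.exists_eq_succ_of_ne_zero hm
  rw [div_le_div_iff₀ (by positivity) (by positivity)]
  simp only [Nat.succ_eq_add_one, Nat.add_sub_cancel]
  have h2 : 1 ≤ σ⁻¹ ^ k * ‖(σ : ℂ) + y * I‖ ^ k := by
    rw [← mul_pow]
    apply one_le_pow₀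
    rw [inv_mul_eq_div, one_le_div hσ]
    exact h0
  have h3 : 0 ≤ ((k + 1).factorial : ℝ) * ‖(σ : ℂ) + y * I‖ ^ 2 := by positivity
  calc ((k + 1).factorial : ℝ) * ‖(σ : ℂ) + y * I‖ ^ 2
      = ((k + 1).factorial : ℝ) * ‖(σ : ℂ) + y * I‖ ^ 2 * 1 := by ring
    _ ≤ ((k + 1).factorial : ℝ) * ‖(σ : ℂ) + y * I‖ ^ 2 * (σ⁻¹ ^ k * ‖(σ : ℂ) + y * I‖ ^ k) :=
        mul_le_mul_of_nonneg_left h2 h3
    _ = _ := by ring

theorem bet_line_cont (m : ℕ) {σ : ℝ} (hσ : 0 < σ) :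
    Continuous fun y : ℝ => bet m ((σ : ℂ) + y * I) :=
  line_cont σ (bet_diff m).continuousOn (fun y => by simp [hσ])

theorem bet_line_int {m : ℕ} (hm : m ≠ 0) {σ : ℝ} (hσ : 0 < σ) :
    Integrable fun y : ℝ => bet m ((σ : ℂ) + y * I) :=
  line_int hσ (bet_line_cont m hσ) (bet_line_bound hm hσ)

/-- Mellin inversion for phi -/
theorem phi_inv {m : ℕ} (hm : m ≠ 0) {σ : ℝ} (hσ : 0 < σ) {u : ℝ} (hu : 0 < u) :
    ((1 / (2 * Real.pi) : ℝ) : ℂ) * ∫ y : ℝ, (u : ℂ) ^ (-((σ : ℂ) + y * I)) * bet m ((σ : ℂ) + y * I)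
      = phi m u := by
  have hm1 : ∀ y : ℝ, mellin (phi m) ((σ : ℂ) + y * I) = bet m ((σ : ℂ) + y * I) := fun y =>
    phi_mellin hm (by rw [line_re]; exact hσ)
  have h := mellinInv_mellin_eq σ (phi m) hu (phi_conv hm (by simpa using hσ))
    (by
      unfold VerticalIntegrable
      simp_rw [hm1]
      exact bet_line_int hm hσ) (phi_cont m).continuousAt
  rw [← h]
  unfold mellinInv
  simp_rw [hm1, smul_eq_mul]
  rw [real_smul]

end kernel

section shiftline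

open Complex MeasureTheory Set Filter

/-- contour shift between two vertical lines for functions of decay |s|^(-2) -/
theorem shift {G : ℂ → ℂ} {α σ : ℝ} (hα : 0 < α) (hασ : α ≤ σ) {U : Set ℂ}
    (hU : ∀ s : ℂ, α ≤ s.re → s.re ≤ σ → s ∈ U) (hG : DifferentiableOn ℂ G U) {M : ℝ}
    (hb : ∀ s : ℂ, α ≤ s.re → s.re ≤ σ → ‖G s‖ ≤ M / ‖s‖ ^ 2) :
    ∫ y : ℝ, G ((σ : ℂ) + y * I) = ∫ y : ℝ, G ((α : ℂ) + y * I) := by
  have hσ : 0 < σ := lt_of_lt_of_le hα hασ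
  have hc : ∀ τ : ℝ, α ≤ τ → τ ≤ σ → Continuous fun y : ℝ => G ((τ : ℂ) + y * I) := fun τ h1 h2 =>
    line_cont τ hG.continuousOn (fun y => hU _ (by rw [line_re]; exact h1) (by rw [line_re]; exact h2))
  have i1 : Integrable fun y : ℝ => G ((σ : ℂ) + y * I) :=
    line_int hσ (hc σ hασ le_rfl) (fun y => hb _ (by rw [line_re]; exact hασ) (by rw [line_re]))
  have i2 : Integrable fun y : ℝ => G ((α : ℂ) + y * I) :=
    line_int hα (hc α le_rfl hασ) (fun y => hb _ (by rw [line_re]) (by rw [line_re]; exact hασ))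
  have t1 := intervalIntegral_tendsto_integral i1 tendsto_neg_atTop_atBot (tendsto_id (α := ℝ))
  have t2 := intervalIntegral_tendsto_integral i2 tendsto_neg_atTop_atBot (tendsto_id (α := ℝ))
  -- the horizontal pieces
  have hor : ∀ T : ℝ, T ≠ 0 → ‖∫ x : ℝ in α..σ, G ((x : ℂ) + T * I)‖ ≤ |M| / T ^ 2 * |σ - α| := by
    intro T hT
    apply intervalIntegral.norm_integral_le_of_norm_le_const
    intro x hx
    rw [uIoc_of_le hασ] at hx
    have h1 := hb ((x : ℂ) + T * I) (by rw [line_re]; exact hx.1.le) (by rw [line_re]; exact hx.2)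
    refine h1.trans ?_
    have hT2 : 0 < T ^ 2 := by positivity
    rw [line_norm_sq]
    calc M / (x ^ 2 + T ^ 2) ≤ |M| / (x ^ 2 + T ^ 2) :=
          div_le_div_of_nonneg_right (le_abs_self M) (by positivity)
      _ ≤ |M| / T ^ 2 := div_le_div_of_nonneg_left (abs_nonneg M) hT2 (by nlinarith [sq_nonneg x])
  have hlim : Tendsto (fun T : ℝ => |M| / T ^ 2 * |σ - α|) atTop (nhds 0) := by
    have h1 : Tendsto (fun T : ℝ => T ^ 2) atTop atTop := tendsto_pow_atTop (by norm_num)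
    have h2 := (h1.const_div_atTop |M|).mul_const |σ - α|
    simpa using h2
  have e1 : Tendsto (fun T : ℝ => ∫ x : ℝ in α..σ, G ((x : ℂ) + T * I)) atTop (nhds 0) := by
    apply squeeze_zero_norm' _ hlim
    filter_upwards [eventually_gt_atTop 0] with T hT using hor T hT.ne'
  have e2 : Tendsto (fun T : ℝ => ∫ x : ℝ in α..σ, G ((x : ℂ) + ((-T : ℝ) : ℂ) * I)) atTop (nhds 0) := by
    apply squeeze_zero_norm' _ hlim
    filter_upwards [eventually_gt_atTop 0] with T hT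
    have := hor (-T) (by linarith [hT] : (-T) ≠ 0)
    rwa [neg_sq] at this
  -- Cauchy
  have cau : ∀ T : ℝ, 0 < T → I • (∫ y : ℝ in -T..T, G ((σ : ℂ) + y * I))
      - I • (∫ y : ℝ in -T..T, G ((α : ℂ) + y * I))
      = (∫ x : ℝ in α..σ, G ((x : ℂ) + T * I)) - ∫ x : ℝ in α..σ, G ((x : ℂ) + ((-T : ℝ) : ℂ) * I) := by
    intro T hT
    have h := integral_boundary_rect_eq_zero_of_differentiableOn G ((α : ℂ) + (-T : ℝ) * I)
      ((σ : ℂ) + T * I) (by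
        apply hG.mono
        intro s hs
        rw [mem_reProdIm, line_re, line_re, uIcc_of_le hασ] at hs
        exact hU s hs.1.1 hs.1.2)
    rw [line_re, line_re, line_im, line_im] at h
    linear_combination h
  have t3 : Tendsto (fun T : ℝ => I • (∫ y : ℝ in -T..T, G ((σ : ℂ) + y * I))
      - I • (∫ y : ℝ in -T..T, G ((α : ℂ) + y * I))) atTop (nhds 0) := by
    have h := e1.sub e2
    rw [sub_zero] at h
    refine h.congr' ?_
    filter_upwards [eventually_gt_atTop 0] with T hT using (cau T hT).symm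
  have t4 := (t1.const_smul I).sub (t2.const_smul I)
  have h := tendsto_nhds_unique t4 t3
  have h2 : I * ((∫ y : ℝ, G ((σ : ℂ) + y * I)) - ∫ y : ℝ, G ((α : ℂ) + y * I)) = 0 := by
    simpa [mul_sub] using h
  have h3 := (mul_eq_zero.1 h2).resolve_left I_ne_zero
  exact sub_eq_zero.1 h3

theorem neg_ne (σ y : ℝ) (hσ : σ ≠ 0) : -((σ : ℂ) + y * I) ≠ 0 := by
  intro h
  have := congrArg Complex.re h
  rw [neg_re, line_re, zero_re] at this
  exact hσ (by linarith)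

/-- (a / x)^(-s) = a^(-s) x^s -/
theorem div_cpow_neg {a x : ℝ} (ha : 0 ≤ a) (hx : 0 < x) (s : ℂ) :
    ((a / x : ℝ) : ℂ) ^ (-s) = (a : ℂ) ^ (-s) * (x : ℂ) ^ s := by
  rw [ofReal_div, div_cpow_ofReal_nonneg ha hx.le, cpow_neg (x : ℂ) s, div_inv_eq_mul]

/-- the smoothed sum as a line integral -/
theorem smooth_sum {m : ℕ} (hm : m ≠ 0) {b : ℕ → ℝ} (hb : ∀ k, 0 ≤ b k) {σ : ℝ} (hσ : 0 < σ)
    (hs : Summable fun k : ℕ => b k * (k : ℝ) ^ (-σ)) {x : ℝ} (hx : 0 < x) :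
    ((1 / (2 * Real.pi) : ℝ) : ℂ) * ∫ y : ℝ, (x : ℂ) ^ ((σ : ℂ) + y * I) *
      ((∑' k : ℕ, (b k : ℂ) * (k : ℂ) ^ (-((σ : ℂ) + y * I))) * bet m ((σ : ℂ) + y * I))
      = ∑' k : ℕ, if k = 0 then 0 else (b k : ℂ) * phi m (k / x) := by
  set F : ℕ → ℝ → ℂ := fun k y => (x : ℂ) ^ ((σ : ℂ) + y * I) *
      (((b k : ℂ) * (k : ℂ) ^ (-((σ : ℂ) + y * I))) * bet m ((σ : ℂ) + y * I)) with hF
  have hF1 : ∀ k : ℕ, ∀ y : ℝ, F k y = (b k : ℂ) * ((((k : ℝ) / x : ℝ) : ℂ) ^ (-((σ : ℂ) + y * I)) *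
      bet m ((σ : ℂ) + y * I)) := by
    intro k y
    rw [div_cpow_neg (Nat.cast_nonneg k) hx, hF]
    push_cast
    ring
  have hnorm : ∀ k : ℕ, ∀ y : ℝ, ‖F k y‖ = (b k * (k : ℝ) ^ (-σ)) * (x ^ σ * ‖bet m ((σ : ℂ) + y * I)‖) := by
    intro k y
    simp only [hF, norm_mul]
    rw [norm_cpow_eq_rpow_re_of_pos hx, line_re, norm_real, Real.norm_of_nonneg (hb k)]
    have : ‖(k : ℂ) ^ (-((σ : ℂ) + y * I))‖ = (k : ℝ) ^ (-σ) := by
      rcases Nat.eq_zero_or_pos k with rfl | hk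
      · rw [Nat.cast_zero, zero_cpow (neg_ne σ y hσ.ne'), norm_zero, Nat.cast_zero,
          Real.zero_rpow (by linarith)]
      · rw [norm_natCast_cpow_of_pos hk, neg_re, line_re]
    rw [this]
    ring
  have hbi := bet_line_int hm hσ
  have hcx : Continuous fun y : ℝ => (x : ℂ) ^ ((σ : ℂ) + y * I) := by
    have hx0 : (x : ℂ) ≠ 0 := ofReal_ne_zero.2 hx.ne'
    exact Continuous.const_cpow (by fun_prop) (Or.inl hx0)
  have hint : ∀ k, Integrable (F k) := by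
    intro k
    have hk : Continuous (F k) := by
      rcases Nat.eq_zero_or_pos k with rfl | hk
      · have : F 0 = fun _ => 0 := by
          ext y
          simp only [hF, Nat.cast_zero]
          rw [zero_cpow (neg_ne σ y hσ.ne')]
          ring
        rw [this]
        exact continuous_const
      · have hk0 : (k : ℂ) ≠ 0 := Nat.cast_ne_zero.2 hk.ne'
        have h2 : Continuous fun y : ℝ => (k : ℂ) ^ (-((σ : ℂ) + y * I)) :=
          Continuous.const_cpow (by fun_prop) (Or.inl hk0)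
        exact hcx.mul ((continuous_const.mul h2).mul (bet_line_cont m hσ))
    refine Integrable.mono' ((hbi.norm.const_mul (x ^ σ)).const_mul (b k * (k : ℝ) ^ (-σ)))
      hk.aestronglyMeasurable (Eventually.of_forall fun y => ?_)
    rw [hnorm]
  have hsum : Summable fun k => ∫ y : ℝ, ‖F k y‖ := by
    have : (fun k => ∫ y : ℝ, ‖F k y‖) = fun k : ℕ => (b k * (k : ℝ) ^ (-σ)) *
        ∫ y : ℝ, (x ^ σ * ‖bet m ((σ : ℂ) + y * I)‖) := by
      ext k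
      rw [← integral_const_mul]
      exact integral_congr_ae (Eventually.of_forall fun y => hnorm k y)
    rw [this]
    exact hs.mul_right _
  have h := hasSum_integral_of_summable_integral_norm hint hsum
  have h2 := h.mul_left (((1 / (2 * Real.pi) : ℝ) : ℂ))
  have h3 : ∀ y : ℝ, ∑' k, F k y = (x : ℂ) ^ ((σ : ℂ) + y * I) *
      ((∑' k : ℕ, (b k : ℂ) * (k : ℂ) ^ (-((σ : ℂ) + y * I))) * bet m ((σ : ℂ) + y * I)) := by
    intro y
    simp only [hF]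
    rw [tsum_mul_left, tsum_mul_right]
  simp_rw [h3] at h2
  rw [← h2.tsum_eq]
  apply tsum_congr
  intro k
  split_ifs with hk
  · subst hk
    have : F 0 = fun _ => 0 := by
      ext y
      simp only [hF, Nat.cast_zero]
      rw [zero_cpow (neg_ne σ y hσ.ne')]
      ring
    rw [this]
    simp
  · have hk' : 0 < (k : ℝ) / x := div_pos (by exact_mod_cast Nat.pos_of_ne_zero hk) hx
    have h4 := phi_inv hm hσ hk'
    rw [← h4]
    have h5 : (∫ y : ℝ, F k y) = (b k : ℂ) * ∫ y : ℝ, ((((k : ℝ) / x : ℝ) : ℂ) ^ (-((σ : ℂ) + y * I)) *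
      bet m ((σ : ℂ) + y * I)) := by
      rw [← integral_const_mul]
      exact integral_congr_ae (Eventually.of_forall fun y => hF1 k y)
    rw [h5]
    ring

theorem bet_succ (m : ℕ) (s : ℂ) :
    bet (m + 1) (s - 1) = ((m : ℂ) + 1) * (bet m s / (s - 1)) := by
  unfold bet
  rw [Finset.prod_range_succ']
  have e : ∏ k ∈ Finset.range (m + 1), (s - 1 + ((k + 1 : ℕ) : ℂ)) = ∏ k ∈ Finset.range (m + 1), (s + k) := by
    apply Finset.prod_congr rfl
    intro k _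
    push_cast
    ring
  rw [e, Nat.factorial_succ]
  push_cast
  rw [add_zero, mul_div_assoc, ← div_div]

/-- the main term as a line integral -/
theorem smooth_main {m : ℕ} (σ : ℝ) (hσ : 1 < σ) {x : ℝ} (hx : 0 < x) :
    ((1 / (2 * Real.pi) : ℝ) : ℂ) * ∫ y : ℝ, (x : ℂ) ^ ((σ : ℂ) + y * I) *
      (((σ : ℂ) + y * I - 1)⁻¹ * bet m ((σ : ℂ) + y * I))
      = x * phi (m + 1) (1 / x) / ((m : ℂ) + 1) := by
  have h := phi_inv (m := m + 1) (by omega) (σ := σ - 1) (by linarith) (u := 1 / x) (by positivity)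
  rw [← h]
  have hm0 : (m : ℂ) + 1 ≠ 0 := by exact_mod_cast Nat.succ_ne_zero m
  have hx0 : (x : ℂ) ≠ 0 := ofReal_ne_zero.2 hx.ne'
  have e : ∀ y : ℝ, ((1 / x : ℝ) : ℂ) ^ (-(((σ - 1 : ℝ) : ℂ) + y * I)) * bet (m + 1) (((σ - 1 : ℝ) : ℂ) + y * I)
      = (((m : ℂ) + 1) / x) * ((x : ℂ) ^ ((σ : ℂ) + y * I) *
      (((σ : ℂ) + y * I - 1)⁻¹ * bet m ((σ : ℂ) + y * I))) := by
    intro y
    have e1 : (((σ - 1 : ℝ) : ℂ) + y * I) = ((σ : ℂ) + y * I) - 1 := by push_cast; ring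
    rw [e1, bet_succ m, div_cpow_neg zero_le_one hx, ofReal_one, one_cpow,
      one_mul, cpow_sub _ _ hx0, cpow_one]
    ring
  rw [integral_congr_ae (Eventually.of_forall e), integral_const_mul]
  generalize (∫ y : ℝ, (x : ℂ) ^ ((σ : ℂ) + y * I) *
      (((σ : ℂ) + y * I - 1)⁻¹ * bet m ((σ : ℂ) + y * I))) = J
  field_simp

theorem rpow_line_norm {x : ℝ} (hx : 0 < x) (σ y : ℝ) : ‖(x : ℂ) ^ ((σ : ℂ) + y * I)‖ = x ^ σ := by
  rw [norm_cpow_eq_rpow_re_of_pos hx, line_re]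

/-- the smoothed formula with a power saving -/
theorem smooth_bound {b : ℕ → ℝ} (hb : ∀ k, 0 ≤ b k)
    (hs : Summable fun k : ℕ => b k * (k : ℝ) ^ (-(3 / 2) : ℝ)) (V : ℝ)
    (Rm : ℂ → ℂ) (hR : DifferentiableOn ℂ Rm {s | 3 / 5 < s.re ∧ s.re < 2})
    (hRB : ∀ s : ℂ, s.re = 3 / 2 → Rm s = (∑' k : ℕ, (b k : ℂ) * (k : ℂ) ^ (-s)) - V / (s - 1))
    (K : ℝ) (A : ℕ)
    (hK : ∀ s : ℂ, 3 / 5 ≤ s.re → s.re ≤ 3 / 2 → ‖Rm s‖ ≤ K * (1 + ‖s‖) ^ A) :
    ∃ C : ℝ, ∀ x : ℝ, 1 ≤ x →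
      ‖(∑' k : ℕ, if k = 0 then 0 else (b k : ℂ) * phi (A + 1) (k / x))
        - V * (x * phi (A + 2) (1 / x) / ((A : ℂ) + 2))‖ ≤ C * x ^ (3 / 4 : ℝ) := by
  set m := A + 1 with hm
  have hm0 : m ≠ 0 := by omega
  have hK0 : 0 ≤ K := by
    have h := hK (3 / 2) (by norm_num) (by norm_num)
    have h2 : (0 : ℝ) < (1 + ‖(3 / 2 : ℂ)‖) ^ A := by positivity
    have h3 := (norm_nonneg _).trans h
    exact nonneg_of_mul_nonneg_left h3 h2
  -- bound of Rm * bet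
  set M : ℝ := K * 3 ^ A * m.factorial with hM
  have hM0 : 0 ≤ M := by positivity
  have bound : ∀ s : ℂ, 3 / 4 ≤ s.re → s.re ≤ 3 / 2 → ‖Rm s * bet m s‖ ≤ M / ‖s‖ ^ 2 := by
    intro s h1 h2
    have hs0 : 0 < s.re := by linarith
    have hn : 3 / 4 ≤ ‖s‖ := h1.trans (re_le_norm s)
    have hn0 : 0 < ‖s‖ := by linarith
    rw [norm_mul]
    have b1 := hK s (by linarith) h2
    have b2 := bet_norm m hs0
    have b3 : (1 + ‖s‖) ^ A ≤ 3 ^ A * ‖s‖ ^ A := by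
      rw [← mul_pow]
      apply pow_le_pow_left₀ (by positivity)
      linarith
    calc ‖Rm s‖ * ‖bet m s‖ ≤ (K * (3 ^ A * ‖s‖ ^ A)) * (m.factorial / ‖s‖ ^ (m + 1)) := by
          apply mul_le_mul (b1.trans (mul_le_mul_of_nonneg_left b3 hK0)) b2 (norm_nonneg _) (by positivity)
      _ = M / ‖s‖ ^ 2 := by
          rw [hM, hm, pow_succ, pow_succ]
          field_simp
  have hRc : ∀ {τ : ℝ}, 3 / 4 ≤ τ → τ ≤ 3 / 2 → Continuous fun y : ℝ => Rm ((τ : ℂ) + y * I) := fun h1 h2 =>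
    line_cont _ hR.continuousOn (fun y => by
      constructor
      · rw [line_re]; linarith
      · rw [line_re]; linarith)
  have hIR : Integrable fun y : ℝ => Rm (((3 / 4 : ℝ) : ℂ) + y * I) * bet m (((3 / 4 : ℝ) : ℂ) + y * I) := by
    apply line_int (f := fun s => Rm s * bet m s) (by norm_num : (0 : ℝ) < 3 / 4)
      ((hRc le_rfl (by norm_num)).mul (bet_line_cont m (by norm_num))) (C := M)
    intro y
    exact bound _ (by rw [line_re]) (by rw [line_re]; norm_num)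
  refine ⟨(1 / (2 * Real.pi)) * ∫ y : ℝ, ‖Rm (((3 / 4 : ℝ) : ℂ) + y * I) * bet m (((3 / 4 : ℝ) : ℂ) + y * I)‖,
    fun x hx => ?_⟩
  have hx0 : 0 < x := by linarith
  have hxc : (x : ℂ) ≠ 0 := ofReal_ne_zero.2 hx0.ne'
  set G : ℂ → ℂ := fun s => (x : ℂ) ^ s * (Rm s * bet m s) with hG
  have hGd : DifferentiableOn ℂ G {s | 3 / 5 < s.re ∧ s.re < 2} := by
    apply DifferentiableOn.mul
    · intro s _
      exact (differentiableAt_id.const_cpow (Or.inl hxc)).differentiableWithinAt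
    · exact hR.mul ((bet_diff m).mono (fun s hs => by
        have : 3 / 5 < s.re := hs.1
        show 0 < s.re
        linarith))
  have hGb : ∀ s : ℂ, 3 / 4 ≤ s.re → s.re ≤ 3 / 2 → ‖G s‖ ≤ (x ^ (3 / 2 : ℝ) * M) / ‖s‖ ^ 2 := by
    intro s h1 h2
    simp only [hG]
    rw [norm_mul, norm_cpow_eq_rpow_re_of_pos hx0, mul_div_assoc]
    exact mul_le_mul (Real.rpow_le_rpow_of_exponent_le hx h2) (bound s h1 h2) (norm_nonneg _)
      (by positivity)
  have hsh := shift (G := G) (α := 3 / 4) (σ := 3 / 2) (by norm_num) (by norm_num)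
    (U := {s | 3 / 5 < s.re ∧ s.re < 2}) (fun s h1 h2 => ⟨by linarith, by linarith⟩) hGd hGb
  -- the two parts on the line 3/2
  have hGi : Integrable fun y : ℝ => G (((3 / 2 : ℝ) : ℂ) + y * I) := by
    apply line_int (by norm_num : (0 : ℝ) < 3 / 2) _ (C := x ^ (3 / 2 : ℝ) * M)
    · intro y
      exact hGb _ (by rw [line_re]; norm_num) (by rw [line_re])
    · exact line_cont _ hGd.continuousOn (fun y => by
        constructor
        · rw [line_re]; norm_num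
        · rw [line_re]; norm_num)
  set P : ℝ → ℂ := fun y => (x : ℂ) ^ (((3 / 2 : ℝ) : ℂ) + y * I) *
      ((((3 / 2 : ℝ) : ℂ) + y * I - 1)⁻¹ * bet m (((3 / 2 : ℝ) : ℂ) + y * I)) with hP
  have hPc : Continuous P := by
    have h1 : ∀ y : ℝ, (((3 / 2 : ℝ) : ℂ) + y * I - 1) ≠ 0 := by
      intro y h
      have := congrArg Complex.re h
      rw [sub_re, line_re] at this
      norm_num at this
    have h2 : Continuous fun y : ℝ => (x : ℂ) ^ (((3 / 2 : ℝ) : ℂ) + y * I) :=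
      Continuous.const_cpow (by fun_prop) (Or.inl hxc)
    exact h2.mul ((Continuous.inv₀ (by fun_prop) h1).mul (bet_line_cont m (by norm_num)))
  have hPi : Integrable P := by
    have h1 := (bet_line_int hm0 (by norm_num : (0 : ℝ) < 3 / 2)).norm.const_mul (x ^ (3 / 2 : ℝ) * 2)
    refine h1.mono' hPc.aestronglyMeasurable (Eventually.of_forall fun y => ?_)
    simp only [hP]
    rw [norm_mul, norm_mul, rpow_line_norm hx0, mul_assoc]
    apply mul_le_mul_of_nonneg_left _ (by positivity)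
    apply mul_le_mul_of_nonneg_right _ (norm_nonneg _)
    rw [norm_inv]
    have h2 : 1 / 2 ≤ ‖((3 / 2 : ℝ) : ℂ) + y * I - 1‖ := by
      have := re_le_norm (((3 / 2 : ℝ) : ℂ) + y * I - 1)
      rw [sub_re, line_re, one_re] at this
      linarith
    rw [inv_le_comm₀ (by linarith) (by norm_num)]
    linarith
  have hmain := smooth_main (m := m) (3 / 2) (by norm_num) hx0
  have hsum := smooth_sum hm0 hb (by norm_num : (0 : ℝ) < 3 / 2) hs hx0
  have hsplit : (∫ y : ℝ, (x : ℂ) ^ (((3 / 2 : ℝ) : ℂ) + y * I) *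
      ((∑' k : ℕ, (b k : ℂ) * (k : ℂ) ^ (-(((3 / 2 : ℝ) : ℂ) + y * I))) * bet m (((3 / 2 : ℝ) : ℂ) + y * I)))
      = (∫ y : ℝ, G (((3 / 2 : ℝ) : ℂ) + y * I)) + V * ∫ y : ℝ, P y := by
    rw [← integral_const_mul, ← integral_add hGi (hPi.const_mul _)]
    apply integral_congr_ae (Eventually.of_forall fun y => ?_)
    simp only [hG, hP]
    rw [hRB _ (line_re _ _)]
    ring
  have hV : ((1 / (2 * Real.pi) : ℝ) : ℂ) * ∫ y : ℝ, P y = x * phi (A + 2) (1 / x) / ((A : ℂ) + 2) := by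
    rw [hmain]
    have : ((m : ℂ) + 1) = (A : ℂ) + 2 := by
      rw [hm]; push_cast; ring
    rw [this]
  rw [← hsum, ← hV, hsplit, hsh]
  have e : ((1 / (2 * Real.pi) : ℝ) : ℂ) * ((∫ y : ℝ, G (((3 / 4 : ℝ) : ℂ) + y * I)) + V * ∫ y : ℝ, P y)
      - V * (((1 / (2 * Real.pi) : ℝ) : ℂ) * ∫ y : ℝ, P y)
      = ((1 / (2 * Real.pi) : ℝ) : ℂ) * ∫ y : ℝ, G (((3 / 4 : ℝ) : ℂ) + y * I) := by ring
  rw [e, norm_mul, norm_real, Real.norm_of_nonneg (by positivity), mul_assoc]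
  apply mul_le_mul_of_nonneg_left _ (by positivity)
  refine (norm_integral_le_integral_norm _).trans ?_
  rw [mul_comm, ← integral_const_mul]
  apply le_of_eq
  apply integral_congr_ae (Eventually.of_forall fun y => ?_)
  simp only [hG]
  rw [norm_mul, rpow_line_norm hx0]

end shiftline

section unsmooth

open Finset

/-- Riesz sums -/
noncomputable def Sj (b : ℕ → ℝ) (j : ℕ) (x : ℝ) : ℝ := ∑ k ∈ Icc 1 ⌊x⌋₊, b k * (x - k) ^ j

/-- truncated power -/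
noncomputable def Pj (j : ℕ) (y : ℝ) : ℝ := if 0 ≤ y then y ^ j else 0

theorem Pj_nonneg (j : ℕ) (y : ℝ) : 0 ≤ Pj j y := by
  unfold Pj
  split_ifs with h
  · positivity
  · exact le_rfl

theorem Sj_eq (b : ℕ → ℝ) (j : ℕ) (x : ℝ) {N : ℕ} (hN : ⌊x⌋₊ ≤ N) :
    Sj b j x = ∑ k ∈ Icc 1 N, b k * Pj j (x - k) := by
  unfold Sj
  rw [← Finset.sum_subset (Icc_subset_Icc le_rfl hN)]
  · apply sum_congr rfl
    intro k hk
    rw [mem_Icc] at hk
    have h1 : (k : ℝ) ≤ x := (Nat.le_floor_iff' (by omega)).1 hk.2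
    rw [Pj, if_pos (by linarith)]
  · intro k hk hk2
    rw [mem_Icc] at hk hk2
    have h1 : ⌊x⌋₊ < k := by
      by_contra h
      exact hk2 ⟨hk.1, not_lt.1 h⟩
    have h2 : x < k := Nat.lt_of_floor_lt h1
    rw [Pj, if_neg (by linarith), mul_zero]

theorem pow_lower (i : ℕ) {y h : ℝ} (hy : 0 ≤ y) (hh : 0 ≤ h) :
    y ^ (i + 1) + (i + 1) * h * y ^ i ≤ (y + h) ^ (i + 1) := by
  induction i with
  | zero => simp
  | succ i ih =>
    have h1 : (y + h) * (y ^ (i + 1) + (i + 1) * h * y ^ i) ≤ (y + h) * (y + h) ^ (i + 1) :=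
      mul_le_mul_of_nonneg_left ih (by positivity)
    have h2 : 0 ≤ (i + 1) * h * h * y ^ i := by positivity
    calc y ^ (i + 1 + 1) + (((i + 1 : ℕ) : ℝ) + 1) * h * y ^ (i + 1)
        ≤ (y + h) * (y ^ (i + 1) + (i + 1) * h * y ^ i) := by
          push_cast
          have e : (y + h) * (y ^ (i + 1) + (i + 1) * h * y ^ i)
            = y ^ (i + 1 + 1) + ((i : ℝ) + 1 + 1) * h * y ^ (i + 1) + (i + 1) * h * h * y ^ i := by ring
          rw [e]
          linarith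
      _ ≤ (y + h) * (y + h) ^ (i + 1) := h1
      _ = (y + h) ^ (i + 1 + 1) := by ring

theorem pow_upper (i : ℕ) {y h : ℝ} (hy : 0 ≤ y) (hh : 0 ≤ h) :
    (y + h) ^ (i + 1) ≤ y ^ (i + 1) + (i + 1) * h * (y + h) ^ i := by
  induction i with
  | zero => simp
  | succ i ih =>
    have h1 : (y + h) * (y + h) ^ (i + 1) ≤ (y + h) * (y ^ (i + 1) + (i + 1) * h * (y + h) ^ i) :=
      mul_le_mul_of_nonneg_left ih (by positivity)
    have h2 : h * y ^ (i + 1) ≤ h * (y + h) ^ (i + 1) :=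
      mul_le_mul_of_nonneg_left (pow_le_pow_left₀ hy (by linarith) _) hh
    calc (y + h) ^ (i + 1 + 1) = (y + h) * (y + h) ^ (i + 1) := by ring
      _ ≤ (y + h) * (y ^ (i + 1) + (i + 1) * h * (y + h) ^ i) := h1
      _ = y ^ (i + 1 + 1) + h * y ^ (i + 1) + (i + 1) * h * (y + h) ^ (i + 1) := by ring
      _ ≤ y ^ (i + 1 + 1) + h * (y + h) ^ (i + 1) + (i + 1) * h * (y + h) ^ (i + 1) := by linarith
      _ = _ := by push_cast; ring

theorem Pj_lower (i : ℕ) (y : ℝ) {h : ℝ} (hh : 0 ≤ h) :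
    ((i : ℝ) + 1) * h * Pj i y ≤ Pj (i + 1) (y + h) - Pj (i + 1) y := by
  by_cases hy : 0 ≤ y
  · have h1 := pow_lower i hy hh
    rw [Pj, Pj, Pj, if_pos hy, if_pos hy, if_pos (by linarith)]
    linarith
  · have h1 := Pj_nonneg (i + 1) (y + h)
    have h2 : Pj i y = 0 := by rw [Pj, if_neg hy]
    have h3 : Pj (i + 1) y = 0 := by rw [Pj, if_neg hy]
    rw [h2, h3]
    linarith

theorem Pj_upper (i : ℕ) (y : ℝ) {h : ℝ} (hh : 0 ≤ h) :
    Pj (i + 1) y - Pj (i + 1) (y - h) ≤ ((i : ℝ) + 1) * h * Pj i y := by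
  by_cases hy : 0 ≤ y
  · by_cases hyh : 0 ≤ y - h
    · have h1 := pow_upper i hyh hh
      rw [sub_add_cancel] at h1
      rw [Pj, Pj, Pj, if_pos hy, if_pos hy, if_pos hyh]
      linarith
    · rw [Pj, Pj, Pj, if_pos hy, if_pos hy, if_neg hyh, sub_zero]
      have h1 : y ≤ h := by linarith
      have h2 : y * y ^ i ≤ h * y ^ i := mul_le_mul_of_nonneg_right h1 (by positivity)
      have h3 : 0 ≤ (i : ℝ) * (h * y ^ i) := by positivity
      calc y ^ (i + 1) = y * y ^ i := by ring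
        _ ≤ h * y ^ i := h2
        _ ≤ h * y ^ i + (i : ℝ) * (h * y ^ i) := by linarith
        _ = _ := by ring
  · have h2 : Pj i y = 0 := by rw [Pj, if_neg hy]
    have h3 : Pj (i + 1) y = 0 := by rw [Pj, if_neg hy]
    have h4 := Pj_nonneg (i + 1) (y - h)
    rw [h2, h3]
    linarith

theorem Sj_lower {b : ℕ → ℝ} (hb : ∀ k, 0 ≤ b k) (i : ℕ) (x : ℝ) {h : ℝ} (hh : 0 ≤ h) :
    ((i : ℝ) + 1) * h * Sj b i x ≤ Sj b (i + 1) (x + h) - Sj b (i + 1) x := by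
  have hN : ⌊x⌋₊ ≤ ⌊x + h⌋₊ := Nat.floor_le_floor (by linarith)
  rw [Sj_eq b i x hN, Sj_eq b (i + 1) x hN, Sj_eq b (i + 1) (x + h) le_rfl, mul_sum, ← sum_sub_distrib]
  apply sum_le_sum
  intro k _
  have h1 := Pj_lower i (x - k) hh
  have e : x + h - k = x - k + h := by ring
  rw [e]
  have h2 := mul_le_mul_of_nonneg_left h1 (hb k)
  linarith

theorem Sj_upper {b : ℕ → ℝ} (hb : ∀ k, 0 ≤ b k) (i : ℕ) (x : ℝ) {h : ℝ} (hh : 0 ≤ h) :
    Sj b (i + 1) x - Sj b (i + 1) (x - h) ≤ ((i : ℝ) + 1) * h * Sj b i x := by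
  have hN : ⌊x - h⌋₊ ≤ ⌊x⌋₊ := Nat.floor_le_floor (by linarith)
  rw [Sj_eq b i x le_rfl, Sj_eq b (i + 1) x le_rfl, Sj_eq b (i + 1) (x - h) hN, mul_sum, ← sum_sub_distrib]
  apply sum_le_sum
  intro k _
  have h1 := Pj_upper i (x - k) hh
  have e : x - h - k = x - k - h := by ring
  rw [e]
  have h2 := mul_le_mul_of_nonneg_left h1 (hb k)
  linarith

theorem Sj_nonneg {b : ℕ → ℝ} (hb : ∀ k, 0 ≤ b k) (i : ℕ) (x : ℝ) : 0 ≤ Sj b i x := by
  rw [Sj_eq b i x le_rfl]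
  exact sum_nonneg fun k _ => mul_nonneg (hb k) (Pj_nonneg _ _)

/-- the induction statement -/
def Qj (b : ℕ → ℝ) (V : ℝ) (j : ℕ) : Prop :=
  ∃ C dl : ℝ, 0 < dl ∧ dl ≤ 1 ∧ ∀ x : ℝ, 0 ≤ x →
    |Sj b j x - V * x ^ (j + 1) / (j + 1)| ≤ C * (1 + x) ^ ((j : ℝ) + 1 - dl)

theorem step_up {b : ℕ → ℝ} (hb : ∀ k, 0 ≤ b k) {V : ℝ} (hV : 0 ≤ V) {i : ℕ} {C dl : ℝ} (hC : 0 ≤ C)
    (hd : 0 < dl) (hd1 : dl ≤ 1)
    (hQ : ∀ x : ℝ, 0 ≤ x → |Sj b (i + 1) x - V * x ^ (i + 1 + 1) / (((i + 1 : ℕ) : ℝ) + 1)| ≤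
      C * (1 + x) ^ (((i + 1 : ℕ) : ℝ) + 1 - dl)) {x : ℝ} (hx : 0 ≤ x) {h E : ℝ} (hh0 : 0 < h)
    (hhX : h ≤ 1 + x) (hE0 : 0 < E) (hE1 : h * (1 + x) ^ i = E)
    (hE2 : (1 + x) ^ (((i + 1 : ℕ) : ℝ) + 1 - dl) = h * E) :
    Sj b i x - V * x ^ (i + 1) / (i + 1) ≤ (V * 2 ^ i + 2 ^ (i + 3) * C) * E := by
  have hi0 : (0 : ℝ) ≤ i := Nat.cast_nonneg i
  have hi1 : (0 : ℝ) < (i : ℝ) + 1 := by positivity
  have hexp : 0 ≤ ((i + 1 : ℕ) : ℝ) + 1 - dl := by push_cast; linarith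
  have hpow1 : (1 : ℝ) ≤ 2 ^ (i + 2) := one_le_pow₀ (by norm_num)
  have q0 := hQ x hx
  rw [hE2, abs_le] at q0
  have q1 := hQ (x + h) (by linarith)
  have b1 : (1 + (x + h)) ^ (((i + 1 : ℕ) : ℝ) + 1 - dl) ≤ 2 ^ (i + 2) * (h * E) := by
    have h1 : (1 + (x + h)) ^ (((i + 1 : ℕ) : ℝ) + 1 - dl) ≤ (2 * (1 + x)) ^ (((i + 1 : ℕ) : ℝ) + 1 - dl) :=
      Real.rpow_le_rpow (by positivity) (by linarith) hexp
    rw [Real.mul_rpow (by norm_num) (by linarith), hE2] at h1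
    refine h1.trans (mul_le_mul_of_nonneg_right ?_ (by positivity))
    rw [← Real.rpow_natCast 2 (i + 2)]
    apply Real.rpow_le_rpow_of_exponent_le (by norm_num)
    push_cast
    linarith
  have q1' := (abs_le.1 (q1.trans (mul_le_mul_of_nonneg_left b1 hC))).2
  have s1 := Sj_lower hb i x hh0.le
  have p1 := pow_upper (i + 1) hx hh0.le
  have p2 := pow_upper i hx hh0.le
  have p3 : (x + h) ^ i ≤ 2 ^ i * (1 + x) ^ i := by
    rw [← mul_pow]
    exact pow_le_pow_left₀ (by positivity) (by linarith) _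
  have hi2 : (0 : ℝ) < ((i + 1 : ℕ) : ℝ) + 1 := by positivity
  have r1 : V * (x + h) ^ (i + 1 + 1) / (((i + 1 : ℕ) : ℝ) + 1) - V * x ^ (i + 1 + 1) / (((i + 1 : ℕ) : ℝ) + 1)
      ≤ V * (h * (x + h) ^ (i + 1)) := by
    rw [← sub_div, div_le_iff₀ hi2]
    have := mul_le_mul_of_nonneg_left p1 hV
    linarith
  have r2 : V * (h * (x + h) ^ (i + 1)) ≤ V * (h * (x ^ (i + 1) + (i + 1) * (2 ^ i * E))) := by
    apply mul_le_mul_of_nonneg_left _ hV
    apply mul_le_mul_of_nonneg_left _ hh0.le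
    refine p2.trans ?_
    have : (i + 1) * h * (x + h) ^ i ≤ ((i : ℝ) + 1) * (2 ^ i * E) := by
      rw [← hE1]
      have := mul_le_mul_of_nonneg_left p3 (by positivity : 0 ≤ ((i : ℝ) + 1) * h)
      linarith
    linarith
  have e3 : C * (h * E) ≤ C * (2 ^ (i + 2) * (h * E)) := by
    apply mul_le_mul_of_nonneg_left _ hC
    exact le_mul_of_one_le_left (by positivity) hpow1
  have tot : h * ((i + 1) * Sj b i x) ≤ h * (V * x ^ (i + 1) + (V * (i + 1) * 2 ^ i + 2 ^ (i + 3) * C) * E) := by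
    have e4 : h * (V * x ^ (i + 1) + (V * (i + 1) * 2 ^ i + 2 ^ (i + 3) * C) * E)
        = V * (h * (x ^ (i + 1) + (i + 1) * (2 ^ i * E))) + 2 * (C * (2 ^ (i + 2) * (h * E))) := by ring
    rw [e4]
    linarith [q0.1, q1']
  have tot2 : (i + 1) * Sj b i x ≤ V * x ^ (i + 1) + (V * (i + 1) * 2 ^ i + 2 ^ (i + 3) * C) * E :=
    le_of_mul_le_mul_left tot hh0
  have e5 : Sj b i x - V * x ^ (i + 1) / (i + 1) = ((i + 1) * Sj b i x - V * x ^ (i + 1)) / (i + 1) := by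
    field_simp
  rw [e5, div_le_iff₀ hi1]
  have e6 : 0 ≤ 2 ^ (i + 3) * C * E * i := by positivity
  have e7 : (V * 2 ^ i + 2 ^ (i + 3) * C) * E * (i + 1) = (V * (i + 1) * 2 ^ i + 2 ^ (i + 3) * C) * E
      + 2 ^ (i + 3) * C * E * i := by ring
  rw [e7]
  linarith

theorem step_lo {b : ℕ → ℝ} (hb : ∀ k, 0 ≤ b k) {V : ℝ} (hV : 0 ≤ V) {i : ℕ} {C dl : ℝ} (hC : 0 ≤ C)
    (hd1 : dl ≤ 1)
    (hQ : ∀ x : ℝ, 0 ≤ x → |Sj b (i + 1) x - V * x ^ (i + 1 + 1) / (((i + 1 : ℕ) : ℝ) + 1)| ≤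
      C * (1 + x) ^ (((i + 1 : ℕ) : ℝ) + 1 - dl)) {x : ℝ} (hx : 0 ≤ x) {h E : ℝ} (hh0 : 0 < h)
    (hE0 : 0 < E) (hE1 : h * (1 + x) ^ i = E)
    (hE2 : (1 + x) ^ (((i + 1 : ℕ) : ℝ) + 1 - dl) = h * E) :
    -((2 * C + V) * E) ≤ Sj b i x - V * x ^ (i + 1) / (i + 1) := by
  have hi0 : (0 : ℝ) ≤ i := Nat.cast_nonneg i
  have hi1 : (0 : ℝ) < (i : ℝ) + 1 := by positivity
  have hexp : 0 ≤ ((i + 1 : ℕ) : ℝ) + 1 - dl := by push_cast; linarith
  have q0 := hQ x hx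
  rw [hE2, abs_le] at q0
  have xX : x ^ i ≤ (1 + x) ^ i := pow_le_pow_left₀ hx (by linarith) _
  by_cases hhx : h ≤ x
  · have q1 := hQ (x - h) (by linarith)
    have b1 : (1 + (x - h)) ^ (((i + 1 : ℕ) : ℝ) + 1 - dl) ≤ h * E := by
      rw [← hE2]
      exact Real.rpow_le_rpow (by linarith) (by linarith) hexp
    have q1' := (abs_le.1 (q1.trans (mul_le_mul_of_nonneg_left b1 hC))).2
    have s1 := Sj_upper hb i x hh0.le
    have hxh : 0 ≤ x - h := by linarith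
    have p1 := pow_lower (i + 1) hxh hh0.le
    have p2 := pow_upper i hxh hh0.le
    rw [sub_add_cancel] at p1 p2
    have hi2 : (0 : ℝ) < ((i + 1 : ℕ) : ℝ) + 1 := by positivity
    have r1 : V * (h * (x - h) ^ (i + 1)) ≤
        V * x ^ (i + 1 + 1) / (((i + 1 : ℕ) : ℝ) + 1) - V * (x - h) ^ (i + 1 + 1) / (((i + 1 : ℕ) : ℝ) + 1) := by
      rw [← sub_div, le_div_iff₀ hi2]
      have := mul_le_mul_of_nonneg_left p1 hV
      linarith
    have r2 : V * (h * (x ^ (i + 1) - (i + 1) * E)) ≤ V * (h * (x - h) ^ (i + 1)) := by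
      apply mul_le_mul_of_nonneg_left _ hV
      apply mul_le_mul_of_nonneg_left _ hh0.le
      have : (i + 1) * h * x ^ i ≤ ((i : ℝ) + 1) * E := by
        rw [← hE1]
        have := mul_le_mul_of_nonneg_left xX (by positivity : 0 ≤ ((i : ℝ) + 1) * h)
        linarith
      linarith
    have tot : h * (V * x ^ (i + 1) - (V * (i + 1) + 2 * C) * E) ≤ h * ((i + 1) * Sj b i x) := by
      have e4 : h * (V * x ^ (i + 1) - (V * (i + 1) + 2 * C) * E)
          = V * (h * (x ^ (i + 1) - (i + 1) * E)) - 2 * (C * (h * E)) := by ring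
      rw [e4]
      linarith [q0.2, q1', q0.1]
    have tot2 : V * x ^ (i + 1) - (V * (i + 1) + 2 * C) * E ≤ (i + 1) * Sj b i x :=
      le_of_mul_le_mul_left tot hh0
    have e5 : Sj b i x - V * x ^ (i + 1) / (i + 1) = ((i + 1) * Sj b i x - V * x ^ (i + 1)) / (i + 1) := by
      field_simp
    rw [e5, le_div_iff₀ hi1]
    have e6 : 0 ≤ 2 * C * E * i := by positivity
    have e7 : -((2 * C + V) * E) * (i + 1) = -((V * (i + 1) + 2 * C) * E) - 2 * C * E * i := by ring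
    rw [e7]
    linarith
  · have hxh : x ≤ h := (not_le.1 hhx).le
    have h1 : x ^ (i + 1) ≤ E := by
      rw [← hE1, pow_succ, mul_comm]
      exact mul_le_mul hxh xX (by positivity) hh0.le
    have h2 : V * x ^ (i + 1) / (i + 1) ≤ V * E := by
      rw [div_le_iff₀ hi1]
      have h3 := mul_le_mul_of_nonneg_left h1 hV
      have h4 : 0 ≤ V * E * i := by positivity
      have h5 : V * E * (i + 1) = V * E + V * E * i := by ring
      rw [h5]
      linarith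
    have h3 := Sj_nonneg hb i x
    have h4 : 0 ≤ 2 * C * E := by positivity
    have h5 : -((2 * C + V) * E) = -(2 * C * E) - V * E := by ring
    rw [h5]
    linarith

theorem Qj_step {b : ℕ → ℝ} (hb : ∀ k, 0 ≤ b k) {V : ℝ} (hV : 0 ≤ V) {i : ℕ} (hQ : Qj b V (i + 1)) :
    Qj b V i := by
  obtain ⟨C, dl, hd, hd1, hQ⟩ := hQ
  have hC : 0 ≤ C := by
    have h := hQ 0 le_rfl
    have h2 := (abs_nonneg _).trans h
    rw [add_zero, Real.one_rpow, mul_one] at h2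
    exact h2
  refine ⟨(V * 2 ^ i + 2 ^ (i + 3) * C) + (2 * C + V), dl / 2, by linarith, by linarith, fun x hx => ?_⟩
  have hX1 : 1 ≤ 1 + x := by linarith
  have hX0 : 0 < 1 + x := by linarith
  have hh0 : 0 < (1 + x) ^ (1 - dl / 2) := by positivity
  have hhX : (1 + x) ^ (1 - dl / 2) ≤ 1 + x := by
    have := Real.rpow_le_rpow_of_exponent_le hX1 (show 1 - dl / 2 ≤ 1 by linarith)
    rwa [Real.rpow_one] at this
  have hE0 : 0 < (1 + x) ^ ((i : ℝ) + 1 - dl / 2) := by positivity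
  have hE1 : (1 + x) ^ (1 - dl / 2) * (1 + x) ^ i = (1 + x) ^ ((i : ℝ) + 1 - dl / 2) := by
    rw [← Real.rpow_natCast (1 + x) i, ← Real.rpow_add hX0]
    ring_nf
  have hE2 : (1 + x) ^ (((i + 1 : ℕ) : ℝ) + 1 - dl) = (1 + x) ^ (1 - dl / 2) * (1 + x) ^ ((i : ℝ) + 1 - dl / 2) := by
    rw [← Real.rpow_add hX0]
    push_cast
    ring_nf
  have up := step_up hb hV hC hd hd1 hQ hx hh0 hhX hE0 hE1 hE2
  have lo := step_lo hb hV hC hd1 hQ hx hh0 hE0 hE1 hE2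
  have z1 : 0 ≤ (V * 2 ^ i + 2 ^ (i + 3) * C) * (1 + x) ^ ((i : ℝ) + 1 - dl / 2) := by positivity
  have z2 : 0 ≤ (2 * C + V) * (1 + x) ^ ((i : ℝ) + 1 - dl / 2) := by positivity
  rw [abs_le, add_mul]
  constructor <;> linarith

theorem Qj_zero {b : ℕ → ℝ} (hb : ∀ k, 0 ≤ b k) {V : ℝ} (hV : 0 ≤ V) {m : ℕ} (hQ : Qj b V m) :
    Qj b V 0 := by
  induction m with
  | zero => exact hQ
  | succ m ih => exact ih (Qj_step hb hV hQ)

/-- from the smoothed formula to the Riesz sum -/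
theorem Qj_of_smooth {b : ℕ → ℝ} {V : ℝ} (hV : 0 ≤ V) {A : ℕ} {C : ℝ}
    (h : ∀ x : ℝ, 1 ≤ x →
      ‖(∑' k : ℕ, if k = 0 then 0 else (b k : ℂ) * phi (A + 1) (k / x))
        - V * (x * phi (A + 2) (1 / x) / ((A : ℂ) + 2))‖ ≤ C * x ^ (3 / 4 : ℝ)) :
    Qj b V (A + 1) := by
  refine ⟨|C| + V, 1 / 4, by norm_num, by norm_num, fun x hx => ?_⟩
  have hXe : (1 : ℝ) ≤ (1 + x) ^ (((A + 1 : ℕ) : ℝ) + 1 - 1 / 4) := by
    apply Real.one_le_rpow (by linarith)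
    push_cast
    have : (0 : ℝ) ≤ A := Nat.cast_nonneg A
    linarith
  have hA2 : (0 : ℝ) < ((A + 1 : ℕ) : ℝ) + 1 := by positivity
  by_cases hx1 : 1 ≤ x
  · have hx0 : 0 < x := by linarith
    have h1 := h x hx1
    have e1 : (∑' k : ℕ, if k = 0 then 0 else (b k : ℂ) * phi (A + 1) (k / x))
        = ((Sj b (A + 1) x / x ^ (A + 1) : ℝ) : ℂ) := by
      rw [tsum_eq_sum (s := Icc 1 ⌊x⌋₊)]
      · rw [Sj, Finset.sum_div]
        push_cast
        apply sum_congr rfl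
        intro k hk
        rw [mem_Icc] at hk
        rw [if_neg (by omega)]
        have h2 : (k : ℝ) ≤ x := (Nat.le_floor_iff' (by omega)).1 hk.2
        rw [phi_of_le ((div_le_one hx0).2 h2)]
        have hxc : (x : ℂ) ≠ 0 := Complex.ofReal_ne_zero.2 hx0.ne'
        have e : (1 - (((k : ℝ) / x : ℝ) : ℂ)) = ((x : ℂ) - k) / x := by
          push_cast
          field_simp
        rw [e, div_pow, mul_div_assoc]
      · intro k hk
        split_ifs with hk0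
        · rfl
        · rw [mem_Icc] at hk
          have h2 : ⌊x⌋₊ < k := by
            by_contra h'
            exact hk ⟨by omega, not_lt.1 h'⟩
          have h3 : x < k := Nat.lt_of_floor_lt h2
          rw [phi_zero (by omega) ((one_le_div hx0).2 h3.le), mul_zero]
    have e2 : (V : ℂ) * (x * phi (A + 2) (1 / x) / ((A : ℂ) + 2))
        = ((V * ((x - 1) ^ (A + 2) / (A + 2)) / x ^ (A + 1) : ℝ) : ℂ) := by
      rw [phi_of_le ((div_le_one hx0).2 hx1)]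
      have hxc : (x : ℂ) ≠ 0 := Complex.ofReal_ne_zero.2 hx0.ne'
      have e : (1 - ((1 / x : ℝ) : ℂ)) = ((x : ℂ) - 1) / x := by
        push_cast
        field_simp
      have hAc : (A : ℂ) + 2 ≠ 0 := by exact_mod_cast (by positivity : (A : ℝ) + 2 ≠ 0)
      rw [e]
      push_cast
      rw [div_pow]
      field_simp
      ring
    rw [e1, e2, ← Complex.ofReal_sub, Complex.norm_real, ← sub_div, norm_div, norm_pow,
      Real.norm_of_nonneg hx0.le, div_le_iff₀ (by positivity), Real.norm_eq_abs] at h1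
    have hc1 : (((A + 1 : ℕ) : ℝ) + 1) = (A : ℝ) + 2 := by push_cast; ring
    -- main term comparison
    have p1 := pow_upper (A + 1) (show 0 ≤ x - 1 by linarith) (zero_le_one (α := ℝ))
    rw [sub_add_cancel, mul_one, hc1] at p1
    have p2 : (x - 1) ^ (A + 1 + 1) ≤ x ^ (A + 1 + 1) :=
      pow_le_pow_left₀ (by linarith) (by linarith) _
    have hA2' : (0 : ℝ) < (A : ℝ) + 2 := by positivity
    have m1 : |V * ((x - 1) ^ (A + 2) / (A + 2)) - V * x ^ (A + 1 + 1) / ((A : ℝ) + 2)| ≤ V * x ^ (A + 1) := by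
      have e3 : V * ((x - 1) ^ (A + 2) / (A + 2)) - V * x ^ (A + 1 + 1) / ((A : ℝ) + 2)
          = -(V * (x ^ (A + 1 + 1) - (x - 1) ^ (A + 1 + 1)) / (A + 2)) := by ring
      rw [e3, abs_neg, abs_of_nonneg (by
        apply div_nonneg _ hA2'.le
        exact mul_nonneg hV (by linarith)), div_le_iff₀ hA2', mul_assoc]
      apply mul_le_mul_of_nonneg_left _ hV
      linarith
    have m2 : x ^ (3 / 4 : ℝ) * x ^ (A + 1) ≤ (1 + x) ^ (((A + 1 : ℕ) : ℝ) + 1 - 1 / 4) := by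
      rw [← Real.rpow_natCast x (A + 1), ← Real.rpow_add hx0]
      have e4 : (3 / 4 : ℝ) + ((A + 1 : ℕ) : ℝ) = ((A + 1 : ℕ) : ℝ) + 1 - 1 / 4 := by ring
      rw [e4]
      apply Real.rpow_le_rpow hx0.le (by linarith)
      push_cast
      have : (0 : ℝ) ≤ A := Nat.cast_nonneg A
      linarith
    have m3 : x ^ (A + 1) ≤ (1 + x) ^ (((A + 1 : ℕ) : ℝ) + 1 - 1 / 4) := by
      refine le_trans ?_ m2
      have h5 : (1 : ℝ) ≤ x ^ (3 / 4 : ℝ) := Real.one_le_rpow hx1 (by norm_num)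
      have h6 : 0 < x ^ (A + 1) := by positivity
      nlinarith
    rw [hc1]
    have tri : |Sj b (A + 1) x - V * x ^ (A + 1 + 1) / ((A : ℝ) + 2)| ≤
        |Sj b (A + 1) x - V * ((x - 1) ^ (A + 2) / (A + 2))|
        + |V * ((x - 1) ^ (A + 2) / (A + 2)) - V * x ^ (A + 1 + 1) / ((A : ℝ) + 2)| := by
      have := abs_add_le (Sj b (A + 1) x - V * ((x - 1) ^ (A + 2) / (A + 2)))
        (V * ((x - 1) ^ (A + 2) / (A + 2)) - V * x ^ (A + 1 + 1) / ((A : ℝ) + 2))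
      rwa [sub_add_sub_cancel] at this
    refine tri.trans ?_
    rw [hc1] at m2 m3
    have n1 : C * x ^ (3 / 4 : ℝ) * x ^ (A + 1) ≤ |C| * (1 + x) ^ ((A : ℝ) + 2 - 1 / 4) := by
      have a1 : C * (x ^ (3 / 4 : ℝ) * x ^ (A + 1)) ≤ |C| * (x ^ (3 / 4 : ℝ) * x ^ (A + 1)) :=
        mul_le_mul_of_nonneg_right (le_abs_self C) (by positivity)
      have a2 := mul_le_mul_of_nonneg_left m2 (abs_nonneg C)
      linarith
    have n2 := mul_le_mul_of_nonneg_left m3 hV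
    linarith
  · have hx2 : x < 1 := not_le.1 hx1
    have e1 : Sj b (A + 1) x = 0 := by
      rw [Sj, Nat.floor_eq_zero.2 hx2]
      simp
    rw [e1, zero_sub, abs_neg, abs_of_nonneg (by positivity)]
    have h1 : V * x ^ (A + 1 + 1) / (((A + 1 : ℕ) : ℝ) + 1) ≤ V := by
      rw [div_le_iff₀ hA2]
      have h2 : x ^ (A + 1 + 1) ≤ 1 := pow_le_one₀ hx hx2.le
      have h3 := mul_le_mul_of_nonneg_left h2 hV
      have h4 : 0 ≤ V * ((A + 1 : ℕ) : ℝ) := by positivity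
      nlinarith
    have h5 : 0 ≤ |C| * (1 + x) ^ (((A + 1 : ℕ) : ℝ) + 1 - 1 / 4) := by positivity
    have h6 := mul_le_mul_of_nonneg_left hXe hV
    nlinarith

/-- **Tauberian theorem with a power saving.** -/
theorem tau_gen (b : ℕ → ℝ) (hb : ∀ k, 0 ≤ b k)
    (hs : Summable fun k : ℕ => b k * (k : ℝ) ^ (-(3 / 2) : ℝ)) (V : ℝ) (hV : 0 ≤ V)
    (Rm : ℂ → ℂ) (hR : DifferentiableOn ℂ Rm {s | 3 / 5 < s.re ∧ s.re < 2})
    (hRB : ∀ s : ℂ, s.re = 3 / 2 → Rm s = (∑' k : ℕ, (b k : ℂ) * (k : ℂ) ^ (-s)) - V / (s - 1))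
    (K : ℝ) (A : ℕ)
    (hK : ∀ s : ℂ, 3 / 5 ≤ s.re → s.re ≤ 3 / 2 → ‖Rm s‖ ≤ K * (1 + ‖s‖) ^ A) :
    ∃ C dl : ℝ, 0 < dl ∧ ∀ x : ℝ, 1 ≤ x →
      |(∑ k ∈ Finset.Icc 1 ⌊x⌋₊, b k) - V * x| ≤ C * x ^ (1 - dl) := by
  obtain ⟨C, hC⟩ := smooth_bound hb hs V Rm hR hRB K A hK
  obtain ⟨C', dl, hd, hd1, h⟩ := Qj_zero hb hV (Qj_of_smooth hV hC)
  refine ⟨|C'| * 2 ^ (1 - dl), dl, hd, fun x hx => ?_⟩
  have hx0 : 0 < x := by linarith
  have h1 := h x hx0.le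
  have e1 : Sj b 0 x = ∑ k ∈ Finset.Icc 1 ⌊x⌋₊, b k := by
    rw [Sj]
    simp
  have e2 : V * x ^ (0 + 1) / (((0 : ℕ) : ℝ) + 1) = V * x := by simp
  have e3 : (((0 : ℕ) : ℝ) + 1 - dl) = 1 - dl := by simp
  rw [e1, e2, e3] at h1
  refine h1.trans ?_
  have h2 : (1 + x) ^ (1 - dl) ≤ (2 * x) ^ (1 - dl) :=
    Real.rpow_le_rpow (by linarith) (by linarith) (by linarith)
  rw [Real.mul_rpow (by norm_num) hx0.le] at h2
  calc C' * (1 + x) ^ (1 - dl) ≤ |C'| * (1 + x) ^ (1 - dl) :=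
        mul_le_mul_of_nonneg_right (le_abs_self C') (by positivity)
    _ ≤ |C'| * (2 ^ (1 - dl) * x ^ (1 - dl)) := mul_le_mul_of_nonneg_left h2 (abs_nonneg C')
    _ = |C'| * 2 ^ (1 - dl) * x ^ (1 - dl) := by ring

/-- the form of the board (exponent 5) -/
theorem tau (b : ℕ → ℝ) (hb : ∀ k, 0 ≤ b k)
    (hs : Summable fun k : ℕ => b k * (k : ℝ) ^ (-(3 / 2) : ℝ)) (V : ℝ) (hV : 0 ≤ V)
    (Rm : ℂ → ℂ) (hR : DifferentiableOn ℂ Rm {s | 3 / 5 < s.re ∧ s.re < 2})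
    (hRB : ∀ s : ℂ, s.re = 3 / 2 → Rm s = (∑' k : ℕ, (b k : ℂ) * (k : ℂ) ^ (-s)) - V / (s - 1))
    (K : ℝ) (hK : ∀ s : ℂ, 3 / 5 ≤ s.re → s.re ≤ 3 / 2 → ‖Rm s‖ ≤ K * (1 + ‖s‖) ^ 5) :
    ∃ C dl : ℝ, 0 < dl ∧ ∀ x : ℝ, 1 ≤ x →
      |(∑ k ∈ Finset.Icc 1 ⌊x⌋₊, b k) - V * x| ≤ C * x ^ (1 - dl) :=
  tau_gen b hb hs V hV Rm hR hRB K 5 hK

end unsmooth

end Vale.Agent.P004H.H924
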