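import Mathlib

/-!
# The Cartier operator and the coefficients of a parametrised elliptic curve

Row (3b) of the X_0(11) line.  Everything is about integral power series.
Let `A`, `B`, `f` be integral power series in `q`, `th = q d/dq`, with
`f (th A) - 2 A (th f) = - B f` and
`B^2 = 4 A^3 + b2 A^2 f^2 + 2 b4 A f^4 + b6 f^6`
(so `x = A / f^2`, `Y = B / f^3` satisfy `th x = - Y f`, `Y^2 = F(x)`).
Then for odd primes `p` with `B` nonzero mod `p` the series `f` mod `p` is an eigenvector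
of `U_p` with eigenvalue the coefficient of `t^(p-1)` in `F(t)^((p-1)/2)`, which is
minus the sum of the quadratic character over the values of `F`.
-/

namespace Vale.Agent.P004H.H924

open PowerSeries

/-- `q d/dq` as a derivation -/
noncomputable def th (R : Type*) [CommRing R] : Derivation R (PowerSeries R) (PowerSeries R) :=
  (PowerSeries.X : PowerSeries R) • PowerSeries.derivative R

section general
variable {R : Type*} [CommRing R]

theorem coeff_th (g : PowerSeries R) (n : ℕ) : coeff n (th R g) = (n : R) * coeff n g := by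
  rw [th, Derivation.smul_apply, smul_eq_mul]
  cases n with
  | zero => simp
  | succ n =>
    rw [PowerSeries.coeff_succ_X_mul, PowerSeries.coeff_derivative]
    push_cast
    ring

/-- the coefficients at the multiples of `p` -/
noncomputable def U (R : Type*) [CommRing R] (p : ℕ) : PowerSeries R →ₗ[R] PowerSeries R where
  toFun g := PowerSeries.mk fun n => coeff (p * n) g
  map_add' x y := by ext n; simp
  map_smul' r x := by ext n; simp

theorem coeff_U (p : ℕ) (g : PowerSeries R) (n : ℕ) : coeff n (U R p g) = coeff (p * n) g := by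
  simp [U]

theorem U_expand_mul (p : ℕ) (hp : p ≠ 0) (h g : PowerSeries R) :
    U R p (expand p hp h * g) = h * U R p g := by
  ext n
  rw [coeff_U, coeff_mul, coeff_mul]
  symm
  apply Finset.sum_of_injOn (fun x : ℕ × ℕ => (p * x.1, p * x.2))
  · intro x _ y _ hxy
    simp only [Prod.mk.injEq] at hxy
    ext
    · exact Nat.eq_of_mul_eq_mul_left (Nat.pos_of_ne_zero hp) hxy.1
    · exact Nat.eq_of_mul_eq_mul_left (Nat.pos_of_ne_zero hp) hxy.2
  · intro x hx
    have hx2 : x.1 + x.2 = n := Finset.HasAntidiagonal.mem_antidiagonal.mp hx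
    apply Finset.mem_coe.mpr
    apply Finset.HasAntidiagonal.mem_antidiagonal.mpr
    change p * x.1 + p * x.2 = p * n
    rw [← mul_add, hx2]
  · intro x hx hx'
    rw [coeff_expand]
    split_ifs with hd
    · exfalso
      apply hx'
      obtain ⟨k, hk⟩ := hd
      have hx := Finset.HasAntidiagonal.mem_antidiagonal.mp hx
      have h2 : p ∣ x.2 := by
        have : x.2 = p * n - p * k := by omega
        rw [this]
        exact Nat.dvd_sub (dvd_mul_right _ _) (dvd_mul_right _ _)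
      obtain ⟨l, hl⟩ := h2
      refine ⟨(k, l), ?_, ?_⟩
      · apply Finset.mem_coe.mpr
        apply Finset.HasAntidiagonal.mem_antidiagonal.mpr
        rw [hk, hl, ← mul_add] at hx
        exact Nat.eq_of_mul_eq_mul_left (Nat.pos_of_ne_zero hp) hx
      · ext
        · exact hk.symm
        · exact hl.symm
    · rw [zero_mul]
  · intro x _
    simp only [coeff_expand_mul, coeff_U]

theorem U_expand (p : ℕ) (hp : p ≠ 0) (h : PowerSeries R) :
    U R p (expand p hp h) = h := by
  ext n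
  rw [coeff_U, coeff_expand_mul]

theorem th_expand (p : ℕ) (hp : p ≠ 0) (g : PowerSeries R) :
    th R (expand p hp g) = (p : PowerSeries R) * expand p hp (th R g) := by
  ext n
  have e : (p : PowerSeries R) = C (p : R) := by simp
  rw [e, coeff_C_mul, coeff_th, coeff_expand, coeff_expand]
  split_ifs with hd
  · obtain ⟨k, hk⟩ := hd
    have : n / p = k := by
      rw [hk, Nat.mul_div_cancel_left _ (Nat.pos_of_ne_zero hp)]
    rw [this, coeff_th, hk]
    push_cast
    ring
  · ring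

theorem map_th {S : Type*} [CommRing S] (s : R →+* S) (g : PowerSeries R) :
    PowerSeries.map s (th R g) = th S (PowerSeries.map s g) := by
  ext n
  simp [coeff_th]

end general

section charp
variable (p : ℕ) [Fact p.Prime]

theorem hp0 : p ≠ 0 := (Fact.out : p.Prime).ne_zero

theorem expand_eq_pow (g : PowerSeries (ZMod p)) : expand p (hp0 p) g = g ^ p := by
  have h := MvPowerSeries.map_frobenius_expand (σ := Unit) (R := ZMod p) p (hp0 p) (f := g)
  rw [ZMod.frobenius_zmod] at h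
  rw [← h]
  ext n
  simp [expand]

theorem U_pow_mul (h g : PowerSeries (ZMod p)) : U (ZMod p) p (h ^ p * g) = h * U (ZMod p) p g := by
  rw [← expand_eq_pow, U_expand_mul]

theorem U_th (g : PowerSeries (ZMod p)) : U (ZMod p) p (th (ZMod p) g) = 0 := by
  ext n
  rw [coeff_U, coeff_th]
  simp

/-- reduction modulo `p` -/
noncomputable def bar : PowerSeries ℤ →+* PowerSeries (ZMod p) :=
  PowerSeries.map (Int.castRingHom (ZMod p))

theorem bar_expand (g : PowerSeries ℤ) : bar p (expand p (hp0 p) g) = bar p g ^ p := by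
  rw [bar, map_expand, expand_eq_pow]

theorem exists_of_bar_zero (g : PowerSeries ℤ) (h : bar p g = 0) :
    ∃ k : PowerSeries ℤ, g = (p : PowerSeries ℤ) * k := by
  have hd : ∀ n, (p : ℤ) ∣ coeff n g := by
    intro n
    have : coeff n (bar p g) = 0 := by rw [h]; simp
    rw [bar, coeff_map] at this
    exact (ZMod.intCast_zmod_eq_zero_iff_dvd _ _).mp (by simpa using this)
  refine ⟨PowerSeries.mk fun n => coeff n g / p, ?_⟩
  ext n
  have e : (p : PowerSeries ℤ) = C (p : ℤ) := by simp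
  rw [e, coeff_C_mul, coeff_mk, Int.mul_ediv_cancel' (hd n)]

theorem bar_th (g : PowerSeries ℤ) : bar p (th ℤ g) = th (ZMod p) (bar p g) := map_th _ g

theorem pow_p_eq {R : Type*} [CommRing R] (a : R) : a ^ p = a ^ (p - 1) * a := by
  rw [← pow_succ, Nat.sub_add_cancel (Fact.out : p.Prime).one_le]

theorem key (A B f : PowerSeries ℤ) (h1 : f * th ℤ A - 2 * A * th ℤ f = -(B * f))
    (hf : bar p f ≠ 0) :
    U (ZMod p) p (bar p A ^ (p - 1) * bar p B) = bar p B := by
  obtain ⟨h, hh⟩ := exists_of_bar_zero p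
    (A ^ p * (expand p (hp0 p) f) ^ 2 - expand p (hp0 p) A * (f ^ p) ^ 2) (by
      simp only [map_sub, map_mul, map_pow, bar_expand]
      ring)
  have hth : th ℤ (A ^ p * (expand p (hp0 p) f) ^ 2 - expand p (hp0 p) A * (f ^ p) ^ 2) =
      (p : PowerSeries ℤ) * (A ^ (p - 1) * th ℤ A * (expand p (hp0 p) f) ^ 2
        + 2 * A ^ p * expand p (hp0 p) f * expand p (hp0 p) (th ℤ f)
        - expand p (hp0 p) (th ℤ A) * (f ^ p) ^ 2
        - 2 * expand p (hp0 p) A * f ^ p * (f ^ (p - 1) * th ℤ f)) := by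
    rw [map_sub, Derivation.leibniz, Derivation.leibniz]
    simp only [Derivation.leibniz_pow, th_expand, smul_eq_mul, nsmul_eq_mul]
    simp only [pow_one, Nat.cast_ofNat, show (2 : ℕ) - 1 = 1 from rfl]
    ring
  have hp : th ℤ ((p : PowerSeries ℤ) * h) = (p : PowerSeries ℤ) * th ℤ h := by
    rw [Derivation.leibniz]
    simp
  have hpne : (p : PowerSeries ℤ) ≠ 0 := by
    intro h0
    have e : (p : PowerSeries ℤ) = C (p : ℤ) := by simp
    rw [e] at h0
    have h1 := congrArg (coeff 0) h0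
    rw [coeff_zero_C, map_zero] at h1
    exact hp0 p (by exact_mod_cast h1)
  have h2 : A ^ (p - 1) * th ℤ A * (expand p (hp0 p) f) ^ 2
        + 2 * A ^ p * expand p (hp0 p) f * expand p (hp0 p) (th ℤ f)
        - expand p (hp0 p) (th ℤ A) * (f ^ p) ^ 2
        - 2 * expand p (hp0 p) A * f ^ p * (f ^ (p - 1) * th ℤ f) = th ℤ h := by
    apply mul_left_cancel₀ hpne
    rw [← hth, hh, hp]
  have h3 := congrArg (bar p) h2
  simp only [map_sub, map_add, map_mul, map_pow, bar_expand, bar_th, map_ofNat] at h3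
  have h4 := congrArg (bar p) h1
  simp only [map_sub, map_mul, map_neg, bar_th, map_ofNat] at h4
  have h5 : th (ZMod p) (bar p h) =
      (bar p f ^ 2) ^ p * (bar p B ^ p - bar p A ^ (p - 1) * bar p B) := by
    rw [← h3]
    have h6 : (bar p f * th (ZMod p) (bar p A) - 2 * bar p A * th (ZMod p) (bar p f)) ^ p
        = (-(bar p B * bar p f)) ^ p := by rw [h4]
    rw [← expand_eq_pow, ← expand_eq_pow] at h6
    simp only [map_sub, map_mul, map_neg, map_ofNat] at h6
    simp only [expand_eq_pow] at h6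
    rw [pow_p_eq p (bar p A)] at h6 ⊢
    have h7 : bar p f ^ p = bar p f ^ (p - 1) * bar p f := pow_p_eq p _
    have h8 : (bar p f ^ 2) ^ p = (bar p f ^ p) ^ 2 := by ring
    rw [h7] at h6
    rw [h8, h7]
    linear_combination (-(bar p f ^ (p - 1) * bar p f)) * h6 +
      (bar p A ^ (p - 1) * bar p f ^ (p - 1) * bar p f ^ (p - 1) * bar p f) * h4
  have h9 := congrArg (U (ZMod p) p) h5
  rw [U_th, U_pow_mul, map_sub] at h9
  have h10 : U (ZMod p) p (bar p B ^ p) = bar p B := by
    rw [← expand_eq_pow, U_expand]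
  rw [h10] at h9
  have h11 : bar p B - U (ZMod p) p (bar p A ^ (p - 1) * bar p B) = 0 := by
    rcases mul_eq_zero.mp h9.symm with h | h
    · exact absurd h (pow_ne_zero _ hf)
    · exact h
  exact (sub_eq_zero.mp h11).symm

/-- the terms that are killed by `U` -/
theorem U_term (A B f : PowerSeries (ZMod p))
    (h1 : f * th (ZMod p) A - 2 * A * th (ZMod p) f = -(B * f)) (j e : ℕ)
    (hj : ((j + 1 : ℕ) : ZMod p) ≠ 0) (he : ((e + 1 : ℕ) : ZMod p) = - 2 * ((j + 1 : ℕ) : ZMod p)) :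
    U (ZMod p) p (A ^ j * B * f ^ (e + 1)) = 0 := by
  have h2 : th (ZMod p) (A ^ (j + 1) * f ^ (e + 1)) =
      - (C ((j + 1 : ℕ) : ZMod p) * (A ^ j * B * f ^ (e + 1))) := by
    rw [Derivation.leibniz]
    simp only [Derivation.leibniz_pow, smul_eq_mul, nsmul_eq_mul, Nat.add_sub_cancel]
    have e1 : ((e + 1 : ℕ) : PowerSeries (ZMod p)) = C ((e + 1 : ℕ) : ZMod p) := by
      rw [map_natCast]
    have e2 : ((j + 1 : ℕ) : PowerSeries (ZMod p)) = C ((j + 1 : ℕ) : ZMod p) := by
      rw [map_natCast]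
    have e3 : (C (-2 : ZMod p) : PowerSeries (ZMod p)) = -2 := by rw [map_neg, map_ofNat]
    rw [e1, e2, he, map_mul, e3]
    linear_combination (C ((j + 1 : ℕ) : ZMod p) * A ^ j * f ^ e) * h1
  have h3 := congrArg (U (ZMod p) p) h2
  rw [U_th, map_neg, ← smul_eq_C_mul, map_smul] at h3
  have h4 : ((j + 1 : ℕ) : ZMod p) • U (ZMod p) p (A ^ j * B * f ^ (e + 1)) = 0 := by
    rw [← neg_eq_zero]; exact h3.symm
  rcases smul_eq_zero.mp h4 with h | h
  · exact absurd h hj
  · exact h

/-- the cubic `4 t^3 + b2 t^2 + 2 b4 t + b6` -/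
noncomputable def cub (R : Type*) [CommRing R] (b2 b4 b6 : R) : Polynomial R :=
  Polynomial.C 4 * Polynomial.X ^ 3 + Polynomial.C b2 * Polynomial.X ^ 2
    + Polynomial.C (2 * b4) * Polynomial.X + Polynomial.C b6

theorem natDegree_cub {R : Type*} [CommRing R] (b2 b4 b6 : R) :
    (cub R b2 b4 b6).natDegree ≤ 3 := by
  unfold cub
  compute_degree

theorem hom_pow_aux {R K : Type*} [CommRing R] [Field K] (i : PowerSeries R →+* K)
    (A f : PowerSeries R) (hif : i f ≠ 0)
    (b2 b4 b6 : R) (m : ℕ) :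
    i ((4 * A ^ 3 + C b2 * A ^ 2 * f ^ 2 + 2 * C b4 * A * f ^ 4 + C b6 * f ^ 6) ^ m) =
      i (∑ j ∈ Finset.range (3 * m + 1),
        C (((cub R b2 b4 b6) ^ m).coeff j) * (A ^ j * f ^ (6 * m - 2 * j))) := by
  have h1 : i (4 * A ^ 3 + C b2 * A ^ 2 * f ^ 2 + 2 * C b4 * A * f ^ 4 + C b6 * f ^ 6) =
      i f ^ 6 * Polynomial.eval₂ (i.comp (C : R →+* PowerSeries R)) (i A / i f ^ 2)
        (cub R b2 b4 b6) := by
    simp only [cub, Polynomial.eval₂_add, Polynomial.eval₂_mul, Polynomial.eval₂_C,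
      Polynomial.eval₂_pow, Polynomial.eval₂_X, RingHom.comp_apply, map_add, map_mul, map_pow,
      map_ofNat, Polynomial.eval₂_ofNat]
    field_simp
  rw [map_pow, h1, mul_pow, ← Polynomial.eval₂_pow,
    Polynomial.eval₂_eq_sum_range' _ (n := 3 * m + 1), map_sum, Finset.mul_sum]
  · apply Finset.sum_congr rfl
    intro j hj
    have hj2 : j ≤ 3 * m := Nat.lt_succ_iff.mp (Finset.mem_range.mp hj)
    rw [map_mul, map_mul, map_pow, map_pow, RingHom.comp_apply, div_pow, ← pow_mul, ← pow_mul]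
    have h2 : i f ^ (6 * m) = i f ^ (6 * m - 2 * j) * i f ^ (2 * j) := by
      rw [← pow_add, Nat.sub_add_cancel (by omega)]
    rw [h2]
    have h3 : i f ^ (2 * j) ≠ 0 := pow_ne_zero _ hif
    field_simp
  · calc ((cub R b2 b4 b6) ^ m).natDegree ≤ m * (cub R b2 b4 b6).natDegree :=
          Polynomial.natDegree_pow_le
      _ ≤ m * 3 := Nat.mul_le_mul_left _ (natDegree_cub _ _ _)
      _ < 3 * m + 1 := by omega

/-- homogenised powers of the cubic -/
theorem hom_pow {R : Type*} [CommRing R] [IsDomain R] (A f : PowerSeries R) (hf : f ≠ 0)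
    (b2 b4 b6 : R) (m : ℕ) :
    (4 * A ^ 3 + C b2 * A ^ 2 * f ^ 2 + 2 * C b4 * A * f ^ 4 + C b6 * f ^ 6) ^ m =
      ∑ j ∈ Finset.range (3 * m + 1),
        C (((cub R b2 b4 b6) ^ m).coeff j) * (A ^ j * f ^ (6 * m - 2 * j)) := by
  have hinj : Function.Injective (algebraMap (PowerSeries R) (FractionRing (PowerSeries R))) :=
    IsFractionRing.injective (PowerSeries R) (FractionRing (PowerSeries R))
  apply hinj
  apply hom_pow_aux
  intro h
  apply hf
  apply hinj
  rw [h, map_zero]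

/-- **the main identity mod `p`** -/
theorem U_eigen (hp2 : p ≠ 2) (A B f : PowerSeries (ZMod p)) (b2 b4 b6 : ZMod p)
    (h1 : f * th (ZMod p) A - 2 * A * th (ZMod p) f = -(B * f))
    (h2 : B ^ 2 = 4 * A ^ 3 + C b2 * A ^ 2 * f ^ 2 + 2 * C b4 * A * f ^ 4 + C b6 * f ^ 6)
    (hf : f ≠ 0) (hB : B ≠ 0)
    (hk : U (ZMod p) p (A ^ (p - 1) * B) = B) :
    U (ZMod p) p f = C (((cub (ZMod p) b2 b4 b6) ^ ((p - 1) / 2)).coeff (p - 1)) * f := by
  have hodd : Odd p := (Fact.out : p.Prime).odd_of_ne_two hp2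
  obtain ⟨m, hm⟩ := hodd
  have hm1 : (p - 1) / 2 = m := by omega
  have hm2 : p - 1 = 2 * m := by omega
  rw [hm1, hm2]
  rw [hm2] at hk
  have hm0 : 1 ≤ m := by
    have := (Fact.out : p.Prime).two_le
    omega
  have e1 : f * B ^ p = ∑ j ∈ Finset.range (3 * m + 1),
      C (((cub (ZMod p) b2 b4 b6) ^ m).coeff j) * (A ^ j * B * f ^ (6 * m - 2 * j + 1)) := by
    have : f * B ^ p = (B ^ 2) ^ m * B * f := by
      rw [← pow_mul, ← pow_succ, ← hm]; ring
    rw [this, h2, hom_pow A f hf, Finset.sum_mul, Finset.sum_mul]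
    apply Finset.sum_congr rfl
    intro j _
    ring
  have e2 := congrArg (U (ZMod p) p) e1
  rw [mul_comm f, U_pow_mul, map_sum, Finset.sum_eq_single (2 * m)] at e2
  · have e3 : A ^ (2 * m) * B * f ^ (6 * m - 2 * (2 * m) + 1) = f ^ p * (A ^ (2 * m) * B) := by
      have : 6 * m - 2 * (2 * m) + 1 = p := by omega
      rw [this]; ring
    rw [e3, ← smul_eq_C_mul, map_smul, U_pow_mul, hk, smul_eq_C_mul] at e2
    apply mul_left_cancel₀ hB
    rw [e2]
    ring
  · intro j hj hj2
    have hj3 : j ≤ 3 * m := Nat.lt_succ_iff.mp (Finset.mem_range.mp hj)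
    rw [← smul_eq_C_mul, map_smul]
    rw [U_term p A B f h1 j (6 * m - 2 * j), smul_zero]
    · intro h0
      have hd := (ZMod.natCast_eq_zero_iff _ _).mp h0
      obtain ⟨k, hk2⟩ := hd
      have hk3 : k < 2 := by
        by_contra hcon
        have : 2 ≤ k := by omega
        have h5 : p * 2 ≤ p * k := Nat.mul_le_mul_left _ this
        omega
      interval_cases k
      · omega
      · omega
    · have h5 : (((6 * m - 2 * j + 1) + 2 * (j + 1) : ℕ) : ZMod p) = 0 := by
        have : (6 * m - 2 * j + 1) + 2 * (j + 1) = 3 * p := by omega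
        rw [this]
        push_cast
        rw [CharP.cast_eq_zero (ZMod p) p, mul_zero]
      rw [Nat.cast_add, Nat.cast_mul] at h5
      push_cast at h5 ⊢
      linear_combination h5
  · intro h
    exact absurd (Finset.mem_range.mpr (by omega)) h

theorem sum_pow_zmod (m : ℕ) (hm : p = 2 * m + 1) (hm0 : 1 ≤ m) (j : ℕ) (hj : j ≤ 3 * m) :
    ∑ t : ZMod p, t ^ j = if j = 2 * m then -1 else 0 := by
  have hc : Fintype.card (ZMod p) = p := ZMod.card p
  rcases lt_trichotomy j (2 * m) with h | h | h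
  · rw [if_neg h.ne]
    apply FiniteField.sum_pow_lt_card_sub_one
    rw [hc]; omega
  · rw [if_pos h, h]
    have h1 : ∀ t : ZMod p, t ^ (2 * m) = 1 - (if t = 0 then 1 else 0) := by
      intro t
      split_ifs with h0
      · rw [h0, zero_pow (by omega), sub_self]
      · have : 2 * m = p - 1 := by omega
        rw [this, ZMod.pow_card_sub_one_eq_one h0, sub_zero]
    simp only [h1, Finset.sum_sub_distrib, Finset.sum_const, Finset.card_univ, hc,
      Finset.sum_ite_eq', Finset.mem_univ, if_true, nsmul_eq_mul, mul_one]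
    rw [CharP.cast_eq_zero (ZMod p) p, zero_sub]
  · rw [if_neg h.ne']
    have h1 : ∀ t : ZMod p, t ^ j = t ^ (j - 2 * m) := by
      intro t
      have e1 : j = p + (j - p) := by omega
      have e2 : j - 2 * m = 1 + (j - p) := by omega
      rw [e2, pow_add, pow_one]
      conv_lhs => rw [e1, pow_add, ZMod.pow_card]
    simp only [h1]
    apply FiniteField.sum_pow_lt_card_sub_one
    rw [hc]; omega

theorem coeff_eq_charSum (hp2 : p ≠ 2) (F : Polynomial (ZMod p)) (hF : F.natDegree ≤ 3) :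
    (F ^ ((p - 1) / 2)).coeff (p - 1) =
      - ∑ t : ZMod p, ((quadraticChar (ZMod p) (F.eval t) : ℤ) : ZMod p) := by
  have hodd : Odd p := (Fact.out : p.Prime).odd_of_ne_two hp2
  obtain ⟨m, hm⟩ := hodd
  have hm1 : (p - 1) / 2 = m := by omega
  have hm2 : p - 1 = 2 * m := by omega
  have hm0 : 1 ≤ m := by
    have := (Fact.out : p.Prime).two_le
    omega
  have hchar : ringChar (ZMod p) ≠ 2 := by
    rw [ZMod.ringChar_zmod_n]; exact hp2
  have h1 : ∀ t : ZMod p, ((quadraticChar (ZMod p) (F.eval t) : ℤ) : ZMod p) =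
      ∑ j ∈ Finset.range (3 * m + 1), (F ^ m).coeff j * t ^ j := by
    intro t
    rw [quadraticChar_eq_pow_of_char_ne_two' hchar, ZMod.card]
    have : p / 2 = m := by omega
    rw [this, ← Polynomial.eval_pow, Polynomial.eval_eq_sum_range' (n := 3 * m + 1)]
    calc (F ^ m).natDegree ≤ m * F.natDegree := Polynomial.natDegree_pow_le
      _ ≤ m * 3 := Nat.mul_le_mul_left _ hF
      _ < 3 * m + 1 := by omega
  simp only [h1]
  rw [Finset.sum_comm]
  simp only [← Finset.mul_sum]
  rw [Finset.sum_eq_single (2 * m)]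
  · rw [sum_pow_zmod p m hm hm0 _ (by omega), if_pos rfl, hm1, hm2]
    ring
  · intro j hj hj2
    rw [sum_pow_zmod p m hm hm0 j (Nat.lt_succ_iff.mp (Finset.mem_range.mp hj)), if_neg hj2,
      mul_zero]
  · intro h
    exact absurd (Finset.mem_range.mpr (by omega)) h

theorem bar_C (a : ℤ) : bar p (C a) = C (a : ZMod p) := by
  rw [bar, map_C]; rfl

/-- **Cartier, homogeneous form.** `A = x f^2`, `B = Y f^3`. -/
theorem cartier (hp2 : p ≠ 2) (A B f : PowerSeries ℤ) (b2 b4 b6 : ℤ)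
    (h1 : f * th ℤ A - 2 * A * th ℤ f = -(B * f))
    (h2 : B ^ 2 = 4 * A ^ 3 + C b2 * A ^ 2 * f ^ 2 + 2 * C b4 * A * f ^ 4 + C b6 * f ^ 6)
    (hf : bar p f ≠ 0) (hB : bar p B ≠ 0) (n : ℕ) :
    ((coeff (p * n) f : ℤ) : ZMod p) =
      (- ∑ t : ZMod p, ((quadraticChar (ZMod p)
        (4 * t ^ 3 + (b2 : ZMod p) * t ^ 2 + 2 * (b4 : ZMod p) * t + (b6 : ZMod p)) : ℤ) :
          ZMod p)) * ((coeff n f : ℤ) : ZMod p) := by
  have h3 := congrArg (bar p) h1
  simp only [map_sub, map_mul, map_neg, bar_th, map_ofNat] at h3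
  have h4 := congrArg (bar p) h2
  simp only [map_add, map_mul, map_pow, map_ofNat, bar_C] at h4
  have h5 := U_eigen p hp2 (bar p A) (bar p B) (bar p f) b2 b4 b6 h3 h4 hf hB
    (key p A B f h1 hf)
  rw [coeff_eq_charSum p hp2 _ (natDegree_cub _ _ _)] at h5
  have h6 := congrArg (coeff n) h5
  rw [coeff_U, coeff_C_mul, bar, coeff_map, coeff_map] at h6
  simp only [Int.coe_castRingHom] at h6
  rw [h6]
  simp only [cub, Polynomial.eval_add, Polynomial.eval_mul, Polynomial.eval_C,
    Polynomial.eval_pow, Polynomial.eval_X]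

/-- **Cartier, Laurent form.** `x = q^-2 x2`, `Y = q^-3 y3`, `th x = - Y f` and
`Y^2 = 4 x^3 + b2 x^2 + 2 b4 x + b6`, written without denominators. -/
theorem cartier' (hp2 : p ≠ 2) (x2 y3 f : PowerSeries ℤ) (b2 b4 b6 : ℤ)
    (hf0 : coeff 0 f = 0) (hf1 : coeff 1 f = 1) (hy : ¬ (p : ℤ) ∣ coeff 0 y3)
    (h1 : (X : PowerSeries ℤ) * (th ℤ x2 - 2 * x2) = -(y3 * f))
    (h2 : y3 ^ 2 = 4 * x2 ^ 3 + C b2 * X ^ 2 * x2 ^ 2 + 2 * C b4 * X ^ 4 * x2
      + C b6 * X ^ 6) (n : ℕ) :
    ((coeff (p * n) f : ℤ) : ZMod p) =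
      (- ∑ t : ZMod p, ((quadraticChar (ZMod p)
        (4 * t ^ 3 + (b2 : ZMod p) * t ^ 2 + 2 * (b4 : ZMod p) * t + (b6 : ZMod p)) : ℤ) :
          ZMod p)) * ((coeff n f : ℤ) : ZMod p) := by
  obtain ⟨g, hg⟩ : (X : PowerSeries ℤ) ∣ f := X_dvd_iff.mpr (by
    rw [← coeff_zero_eq_constantCoeff_apply]; exact hf0)
  have hg0 : coeff 0 g = 1 := by
    rw [hg, show (1 : ℕ) = 0 + 1 from rfl, coeff_succ_X_mul] at hf1
    exact hf1
  have hthX : th ℤ (X : PowerSeries ℤ) = X := by
    ext k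
    rw [coeff_th, coeff_X]
    split_ifs with h
    · rw [h]; simp
    · simp
  apply cartier p hp2 (x2 * g ^ 2) (y3 * g ^ 3) f b2 b4 b6
  · have e1 : th ℤ f = X * g + X * th ℤ g := by
      rw [hg, Derivation.leibniz, hthX]
      simp only [smul_eq_mul]
      ring
    have e2 : th ℤ (x2 * g ^ 2) = th ℤ x2 * g ^ 2 + 2 * x2 * g * th ℤ g := by
      rw [Derivation.leibniz, Derivation.leibniz_pow]
      simp only [smul_eq_mul, nsmul_eq_mul, Nat.cast_ofNat, show (2 : ℕ) - 1 = 1 from rfl,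
        pow_one]
      ring
    rw [e1, e2]
    have h3 : X * (th ℤ x2 - 2 * x2) = -(y3 * (X * g)) := by rw [h1, ← hg]
    rw [hg]
    linear_combination g ^ 3 * h3
  · rw [hg]
    linear_combination g ^ 6 * h2
  · intro h
    have h3 := congrArg (coeff 1) h
    rw [bar, coeff_map, hf1, map_one, map_zero] at h3
    exact one_ne_zero h3
  · intro h
    have h3 := congrArg (coeff 0) h
    rw [bar, coeff_map, map_zero, coeff_zero_eq_constantCoeff_apply, map_mul, map_pow,
      ← coeff_zero_eq_constantCoeff_apply, ← coeff_zero_eq_constantCoeff_apply, hg0, one_pow,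
      mul_one] at h3
    exact hy ((ZMod.intCast_zmod_eq_zero_iff_dvd _ _).mp (by simpa using h3))

/-- change of variable `x = 36 t - 12` for the curve `11a1` -/
theorem charSum_11 (h2 : p ≠ 2) (h3 : p ≠ 3) :
    ∑ t : ZMod p, (quadraticChar (ZMod p)
        (4 * t ^ 3 + ((-4 : ℤ) : ZMod p) * t ^ 2 + 2 * ((-20 : ℤ) : ZMod p) * t
          + ((-79 : ℤ) : ZMod p)) : ℤ) =
      ∑ x : ZMod p, (quadraticChar (ZMod p) (x ^ 3 + ((-13392 : ℤ) : ZMod p) * x
          + ((-1080432 : ℤ) : ZMod p)) : ℤ) := by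
  have hp := (Fact.out : p.Prime)
  have h2' : (2 : ZMod p) ≠ 0 := by
    intro h
    have h5 : ((2 : ℕ) : ZMod p) = 0 := by exact_mod_cast h
    exact h2 ((Nat.prime_dvd_prime_iff_eq hp Nat.prime_two).mp
      ((ZMod.natCast_eq_zero_iff _ _).mp h5))
  have h3' : (3 : ZMod p) ≠ 0 := by
    intro h
    have h5 : ((3 : ℕ) : ZMod p) = 0 := by exact_mod_cast h
    exact h3 ((Nat.prime_dvd_prime_iff_eq hp Nat.prime_three).mp
      ((ZMod.natCast_eq_zero_iff _ _).mp h5))
  have h36 : (36 : ZMod p) ≠ 0 := by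
    have : (36 : ZMod p) = 2 ^ 2 * 3 ^ 2 := by norm_num
    rw [this]
    exact mul_ne_zero (pow_ne_zero _ h2') (pow_ne_zero _ h3')
  have h108 : (108 : ZMod p) ≠ 0 := by
    have : (108 : ZMod p) = 2 ^ 2 * 3 ^ 3 := by norm_num
    rw [this]
    exact mul_ne_zero (pow_ne_zero _ h2') (pow_ne_zero _ h3')
  let e : ZMod p ≃ ZMod p :=
    { toFun := fun t => 36 * t - 12
      invFun := fun x => (x + 12) / 36
      left_inv := fun t => by field_simp; ring
      right_inv := fun x => by field_simp; ring }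
  symm
  rw [← Equiv.sum_comp e]
  apply Finset.sum_congr rfl
  intro t _
  have e1 : (e t) ^ 3 + ((-13392 : ℤ) : ZMod p) * (e t) + ((-1080432 : ℤ) : ZMod p) =
      108 ^ 2 * (4 * t ^ 3 + ((-4 : ℤ) : ZMod p) * t ^ 2 + 2 * ((-20 : ℤ) : ZMod p) * t
          + ((-79 : ℤ) : ZMod p)) := by
    change (36 * t - 12) ^ 3 + ((-13392 : ℤ) : ZMod p) * (36 * t - 12)
      + ((-1080432 : ℤ) : ZMod p) = _
    push_cast
    ring
  rw [e1, map_mul, quadraticChar_sq_one' h108, one_mul]

end charp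

end Vale.Agent.P004H.H924
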