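import Vale.Agent.P004H.H204.Formal
import Vale.Agent.P004H.H924.Cartier

/-!
# Join of the parametrisation and the Cartier lemma: the coefficient of the form of level 11
at `p` modulo `p`
-/

namespace Vale.Agent.P004H.H924

open PowerSeries

/-- `a(p) = - sum of the quadratic character` modulo `p`, for all odd primes -/
theorem join {f1 S : PowerSeries ℤ} (h1 : constantCoeff f1 = 1) (hS : constantCoeff S = 0)
    (hQ : H204.Quartic (X * f1) (5 + 12 * S)) (p : ℕ) [Fact p.Prime] (hp2 : p ≠ 2) :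
    ((coeff p (X * f1) : ℤ) : ZMod p) =
      -((∑ t : ZMod p, quadraticChar (ZMod p) (4 * t ^ 3 - 4 * t ^ 2 - 40 * t - 79) : ℤ) :
        ZMod p) := by
  obtain ⟨X1, Y0, hX1, hY0, hY, hth⟩ := H204.param h1 hS hQ
  have h := cartier' p hp2 X1 Y0 (X * f1) (-4) (-20) (-79) (by simp)
    (by rw [show (1 : ℕ) = 0 + 1 from rfl, coeff_succ_X_mul, coeff_zero_eq_constantCoeff_apply,
      h1])
    (by
      rw [coeff_zero_eq_constantCoeff_apply, hY0]
      intro hd
      have h3 : p ∣ 2 := by exact_mod_cast hd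
      exact hp2 ((Nat.prime_dvd_prime_iff_eq (Fact.out : p.Prime) Nat.prime_two).mp h3))
    (by
      change X * (H204.th X1 - 2 * X1) = _
      rw [hth]; ring)
    (by
      rw [hY]
      simp only [map_neg, map_ofNat]
      ring) 1
  rw [mul_one, show coeff 1 (X * f1) = (1 : ℤ) by
    rw [show (1 : ℕ) = 0 + 1 from rfl, coeff_succ_X_mul, coeff_zero_eq_constantCoeff_apply, h1],
    Int.cast_one, mul_one] at h
  rw [h, Int.cast_sum]
  congr 1
  apply Finset.sum_congr rfl
  intro t _
  have e : 4 * t ^ 3 + ((-4 : ℤ) : ZMod p) * t ^ 2 + 2 * ((-20 : ℤ) : ZMod p) * t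
      + ((-79 : ℤ) : ZMod p) = 4 * t ^ 3 - 4 * t ^ 2 - 40 * t - 79 := by
    push_cast
    ring
  rw [e]

end Vale.Agent.P004H.H924
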