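import Vale.Agent.P004H.H742.BaseF
import Vale.Agent.P004H.H924.E2c

/-!
# P004H/H924: Mathlib's L-functions of the quadratic twists of y^2 + y = x^3 - x^2 - 7820 x - 263580,
from the traces at the primes other than 11
-/

open P004G P004G.ML

namespace Vale.Agent.P004H.H924.E2

theorem co_of {A : ℕ → ℤ} (hA : H742.Co A) (tr : ∀ p : ℕ, p.Prime → p ≠ 11 → A p = p - cnt p) : Co A :=
  ⟨hA.zero, hA.one, hA.mul, hA.good, hA.el, tr⟩

theorem r7F (tr : ∀ p : ℕ, p.Prime → p ≠ 11 → H792.a p = p - cnt p) (D : ℤ) (hD : Fund1 D) (n : ℕ) :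
    LA (-10135152 * D ^ 2) (-12419196912 * D ^ 3) n = H792.a n * H742.kron D n :=
  r7 H792.a (co_of H742.coF tr) D hD n

/-- the L-functions of all quadratic twists agree with those of the twists of X_0(11) -/
theorem iso (tr : ∀ p : ℕ, p.Prime → p ≠ 11 → H792.a p = p - cnt p) (D : ℤ) (hD : Fund1 D) (n : ℕ) :
    LA (-10135152 * D ^ 2) (-12419196912 * D ^ 3) n = LA (-13392 * D ^ 2) (-1080432 * D ^ 3) n := by
  rw [r7F tr D hD n, H742.r7F D hD n]

end Vale.Agent.P004H.H924.E2
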