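import Vale.Agent.P004H.H924.E3b

/-!
# P004H/H924: the local factors at 3 and 11 for y^2 + y = x^3 - x^2 + (0) x + (0)
-/

open WeierstrassCurve IsDedekindDomain NumberField Polynomial

namespace Vale.Agent.P004H.H924.E3

open P004G P004G.ML P004G.ML.MG P004G.MS Vale.Agent.P004H.H641 Vale.Agent.P004H.H742

section local_ring

variable {R : Type} [CommRing R] [IsDomain R] [IsDiscreteValuationRing R]
  {K : Type} [Field K] [Algebra R K] [IsFractionRing R K]

/-! ### additive reduction at an odd prime -/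

lemma add_odd {p : ℕ} (h : Loc p R) {D d e f : ℤ} {s t : ℕ} (hD : D = p * d)
    (hd : ¬ (p : ℤ) ∣ d) (hs : -(2176782336 * 11) = (p : ℤ) ^ s * e) (he : ¬ (p : ℤ) ∣ e)
    (ht : (20736 : ℤ) = (p : ℤ) ^ t * f) (hf : ¬ (p : ℤ) ∣ f) (h12 : ¬ 12 ∣ s + 6)
    (h4 : ¬ 4 ∣ t + 2) {C : VariableChange K} {W₁ : WeierstrassCurve R}
    (hC : C • WK K D = W₁.map (algebraMap R K)) : ¬ IsUnit W₁.Δ ∧ ¬ IsUnit W₁.c₄ := by
  obtain ⟨a, b, ha, hb, hu⟩ := exists_frac (R := R) C
  have r1 := rel_Δ hC hu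
  have r4 := rel_c₄ hC hu
  obtain ⟨i, u, rfl⟩ := fac h ha
  obtain ⟨j, v, rfl⟩ := fac h hb
  have hdu : IsUnit (d : R) := int_unit h hd
  have heu : IsUnit (e : R) := int_unit h he
  have hfu : IsUnit (f : R) := int_unit h hf
  have hDR : (D : R) = (p : R) * (d : R) := by
    have := congrArg (fun z : ℤ => (z : R)) hD
    push_cast at this
    exact this
  have hsR : (-(2176782336 * 11) : R) = (p : R) ^ s * (e : R) := by
    have h1 := congrArg (fun z : ℤ => (z : R)) hs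
    push_cast at h1
    rw [← h1]
    norm_num
  have htR : (20736 : R) = (p : R) ^ t * (f : R) := by
    have := congrArg (fun z : ℤ => (z : R)) ht
    push_cast at this
    exact this
  rw [hDR, hsR] at r1
  rw [hDR, htR] at r4
  constructor
  · intro hΔ
    have q1 : ((e : R) * (d : R) ^ 6 * (v : R) ^ 12) * (p : R) ^ (s + 6 + 12 * j) =
        (W₁.Δ * (u : R) ^ 12) * (p : R) ^ (12 * i) := by
      calc _ = (p : R) ^ s * (e : R) * ((p : R) * (d : R)) ^ 6 * ((v : R) * (p : R) ^ j) ^ 12 := by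
            ring
        _ = _ := r1
        _ = _ := by ring
    have q2 := (fac_unique h ((heu.mul (hdu.pow 6)).mul (v.isUnit.pow 12))
      (hΔ.mul (u.isUnit.pow 12)) q1).1
    exact h12 (by omega)
  · intro hc
    have q1 : ((f : R) * (d : R) ^ 2 * (v : R) ^ 4) * (p : R) ^ (t + 2 + 4 * j) =
        (W₁.c₄ * (u : R) ^ 4) * (p : R) ^ (4 * i) := by
      calc _ = (p : R) ^ t * (f : R) * ((p : R) * (d : R)) ^ 2 * ((v : R) * (p : R) ^ j) ^ 4 := by
            ring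
        _ = _ := r4
        _ = _ := by ring
    have q2 := (fac_unique h ((hfu.mul (hdu.pow 2)).mul (v.isUnit.pow 4))
      (hc.mul (u.isUnit.pow 4)) q1).1
    exact h4 (by omega)

/-! ### good reduction at `3` -/

/-- the good model at `3` -/
lemma model_good3 {p : ℕ} (h : Loc p R) (D : ℤ) :
    ∃ C : VariableChange K, C • WK K D =
      (⟨0, ((-4 * D : ℤ) : R), 0, ((0 * D ^ 2 : ℤ) : R), ((16 * D ^ 3 : ℤ) : R)⟩ :
        WeierstrassCurve R).map (algebraMap R K) := by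
  have h3 : (3 : K) ≠ 0 := by
    have := int_ne (K := K) h (n := 3) (by norm_num)
    rw [map_intCast] at this
    exact_mod_cast this
  refine ⟨⟨Units.mk0 (3 : K) h3, -12 * (D : K), 0, 0⟩, ?_⟩
  ext
  · simp [variableChange_a₁, WK, Ew]
  · simp only [variableChange_a₂, WK, Ew, WeierstrassCurve.map_a₂, Units.val_inv_eq_inv_val,
      Units.val_mk0, map_intCast]
    push_cast
    field_simp
    ring
  · simp only [variableChange_a₃, WK, Ew, WeierstrassCurve.map_a₃, Units.val_inv_eq_inv_val,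
      Units.val_mk0, map_zero]
    field_simp
    ring
  · simp only [variableChange_a₄, WK, Ew, WeierstrassCurve.map_a₄, Units.val_inv_eq_inv_val,
      Units.val_mk0, map_intCast]
    push_cast
    field_simp
    ring
  · simp only [variableChange_a₆, WK, Ew, WeierstrassCurve.map_a₆, Units.val_inv_eq_inv_val,
      Units.val_mk0, map_intCast]
    push_cast
    field_simp
    ring

omit [IsDomain R] [IsDiscreteValuationRing R] in
lemma Δ_good3 (D : ℤ) :
    (⟨0, ((-4 * D : ℤ) : R), 0, ((0 * D ^ 2 : ℤ) : R), ((16 * D ^ 3 : ℤ) : R)⟩ :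
      WeierstrassCurve R).Δ = ((-(4096 * 11) * D ^ 6 : ℤ) : R) := by
  simp only [WeierstrassCurve.Δ, WeierstrassCurve.b₂, WeierstrassCurve.b₄, WeierstrassCurve.b₆,
    WeierstrassCurve.b₈]
  push_cast
  ring

/-- the number of points of the reduction at `3` -/
lemma count_good3 (h : Loc 3 R) (D : ℤ) (hD : ¬ (3 : ℤ) ∣ D) :
    (affCard ((⟨0, ((-4 * D : ℤ) : R), 0, ((0 * D ^ 2 : ℤ) : R), ((16 * D ^ 3 : ℤ) : R)⟩ :
      WeierstrassCurve R).map (IsLocalRing.residue R)) : ℤ) = if D % 3 = 1 then 4 else 2 := by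
  obtain ⟨f⟩ := res_equiv h
  have h1 : (⟨0, ((-4 * D : ℤ) : R), 0, ((0 * D ^ 2 : ℤ) : R), ((16 * D ^ 3 : ℤ) : R)⟩ :
      WeierstrassCurve R).map (IsLocalRing.residue R) =
      (⟨0, ((-4 * D : ℤ) : ZMod 3), 0, ((0 * D ^ 2 : ℤ) : ZMod 3),
        ((16 * D ^ 3 : ℤ) : ZMod 3)⟩ : WeierstrassCurve (ZMod 3)).map
        (f : ZMod 3 →+* IsLocalRing.ResidueField R) := by
    ext
    · simp
    · simp only [WeierstrassCurve.map_a₂, map_intCast]
    · simp
    · simp only [WeierstrassCurve.map_a₄, map_intCast]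
    · simp only [WeierstrassCurve.map_a₆, map_intCast]
  rw [h1, affCard_equiv]
  unfold affCard
  have h2 : ∀ c : ZMod 3, c ≠ 0 → Nat.card {q : ZMod 3 × ZMod 3 // q.2 ^ 2 + 0 * q.1 * q.2 +
      0 * q.2 = q.1 ^ 3 + (-4 * c) * q.1 ^ 2 + (0 * c ^ 2) * q.1 + (16 * c ^ 3)} =
      if c = 1 then 4 else 2 := by
    intro c
    rw [Nat.card_eq_fintype_card]
    revert c
    decide
  have hDc : (D : ZMod 3) ≠ 0 := by
    intro h0
    rw [ZMod.intCast_zmod_eq_zero_iff_dvd] at h0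
    exact hD (by exact_mod_cast h0)
  have h3 := h2 (D : ZMod 3) hDc
  push_cast
  rw [h3]
  have h4 : ((D : ZMod 3) = 1) ↔ D % 3 = 1 := by
    have : ((1 : ℤ) : ZMod 3) = 1 := by norm_num
    rw [← this, ZMod.intCast_eq_intCast_iff]
    unfold Int.ModEq
    push_cast
    omega
  by_cases h5 : D % 3 = 1
  · rw [if_pos (h4.2 h5), if_pos h5]
    rfl
  · rw [if_neg (fun h6 => h5 (h4.1 h6)), if_neg h5]
    rfl

end local_ring

lemma jac_three {D : ℤ} (hD : ¬ (3 : ℤ) ∣ D) : jacobiSym D 3 = if D % 3 = 1 then 1 else -1 := by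
  rw [jacobiSym.mod_left]
  rcases (by omega : D % 3 = 1 ∨ D % 3 = 2) with h | h
  · rw [if_pos h]
    have : D % ((3 : ℕ) : ℤ) = 1 := by exact_mod_cast h
    rw [this, jacobiSym.one_left]
  · rw [if_neg (by omega)]
    have : D % ((3 : ℕ) : ℤ) = 2 := by exact_mod_cast h
    rw [this, jacobiSym.at_two (by decide)]
    decide

/-- **`3 ∤ D`: good reduction at `3`**, with `a_3 = -(D/3)`. -/
theorem loc3_good {D : ℤ} (hD : ¬ (3 : ℤ) ∣ D) : GoodAt (LT D) 3 ∧ LT D 3 = - jacobiSym D 3 := by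
  have hp : Nat.Prime 3 := Nat.prime_three
  have hL := M2.pfLoc 3 hp
  obtain ⟨-, -, -, e3⟩ := M2.pfEul (-432 * D ^ 2) (8208 * D ^ 3)
  obtain ⟨-, -, -, f4⟩ := e3 3 hp
  obtain ⟨C, hC⟩ := model_good3 (K := (pl 3 hp).adicCompletion ℚ) hL D
  have hu : IsUnit (⟨0, ((-4 * D : ℤ) : (pl 3 hp).adicCompletionIntegers ℚ), 0,
      ((0 * D ^ 2 : ℤ) : (pl 3 hp).adicCompletionIntegers ℚ),
      ((16 * D ^ 3 : ℤ) : (pl 3 hp).adicCompletionIntegers ℚ)⟩ :
        WeierstrassCurve ((pl 3 hp).adicCompletionIntegers ℚ)).Δ := by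
    rw [Δ_good3 D]
    apply int_unit hL
    intro h1
    have hpp : Prime ((3 : ℕ) : ℤ) := Nat.prime_iff_prime_int.1 hp
    rcases hpp.dvd_or_dvd h1 with h2 | h2
    · norm_num at h2
    · have h3 := hpp.dvd_of_dvd_pow h2
      exact hD (by exact_mod_cast h3)
  have hpol := M1.pfLocGood 3 _ _ hL _ C _ hC hu
  rw [← locP_eq, count_good3 hL D hD] at hpol
  obtain ⟨t1, t2⟩ := f4 _ hpol
  refine ⟨t2, ?_⟩
  have t1' : LT D 3 = (3 : ℕ) - (if D % 3 = 1 then 4 else 2) := t1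
  rw [t1', jac_three hD]
  by_cases h8 : D % 3 = 1
  · rw [if_pos h8, if_pos h8]
    norm_num
  · rw [if_neg h8, if_neg h8]
    norm_num

/-- **`3 ∣ D`: additive reduction at `3`** -/
theorem loc3_add {D : ℤ} (hF : Fund1 D) (hD : (3 : ℤ) ∣ D) : TrivAt (LT D) 3 := by
  have hp : Nat.Prime 3 := Nat.prime_three
  have hL := M2.pfLoc 3 hp
  obtain ⟨-, -, -, e3⟩ := M2.pfEul (-432 * D ^ 2) (8208 * D ^ 3)
  obtain ⟨f1, -, -, -⟩ := e3 3 hp
  have h9 := fund_not_sq hF hp (by norm_num)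
  obtain ⟨d, hd⟩ := hD
  have hd3 : ¬ ((3 : ℕ) : ℤ) ∣ d := by
    rintro ⟨c, rfl⟩
    apply h9
    rw [hd]
    exact ⟨c, by push_cast; ring⟩
  apply f1
  rw [locP_eq]
  refine M1.pfLocAdd 3 _ _ hL _ fun C W₁ e => ?_
  exact add_odd hL (e := -(4096 * 11)) (f := 256) (s := 12) (t := 4)
    (by exact_mod_cast hd) hd3 (by norm_num) (by norm_num) (by norm_num) (by norm_num)
    (by norm_num) (by norm_num) e

/-- **`11 ∣ D`: additive reduction at `11`** -/
theorem loc11_add {D : ℤ} (hF : Fund1 D) (hD : (11 : ℤ) ∣ D) : TrivAt (LT D) 11 := by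
  have hp : Nat.Prime 11 := by norm_num
  have hL := M2.pfLoc 11 hp
  obtain ⟨-, -, -, e3⟩ := M2.pfEul (-432 * D ^ 2) (8208 * D ^ 3)
  obtain ⟨f1, -, -, -⟩ := e3 11 hp
  have h9 := fund_not_sq hF hp (by norm_num)
  obtain ⟨d, hd⟩ := hD
  have hd3 : ¬ ((11 : ℕ) : ℤ) ∣ d := by
    rintro ⟨c, rfl⟩
    apply h9
    rw [hd]
    exact ⟨c, by push_cast; ring⟩
  apply f1
  rw [locP_eq]
  refine M1.pfLocAdd 11 _ _ hL _ fun C W₁ e => ?_
  exact add_odd hL (e := -2176782336) (f := 20736) (s := 1) (t := 0)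
    (by exact_mod_cast hd) hd3 (by norm_num) (by norm_num) (by norm_num) (by norm_num)
    (by norm_num) (by norm_num) e

lemma node_eq {F : Type} [Field F] (D : ℤ) (T : F) :
    (Ew F (-432 * D ^ 2) (8208 * D ^ 3)).c₄ * T ^ 2 +
      (Ew F (-432 * D ^ 2) (8208 * D ^ 3)).a₁ *
        (Ew F (-432 * D ^ 2) (8208 * D ^ 3)).c₄ * T -
      (54 * (Ew F (-432 * D ^ 2) (8208 * D ^ 3)).b₆ -
        3 * (Ew F (-432 * D ^ 2) (8208 * D ^ 3)).b₂ *
          (Ew F (-432 * D ^ 2) (8208 * D ^ 3)).b₄ +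
        (Ew F (-432 * D ^ 2) (8208 * D ^ 3)).a₂ *
          (Ew F (-432 * D ^ 2) (8208 * D ^ 3)).c₄) =
      20736 * (D : F) ^ 2 * T ^ 2 - 1772928 * (D : F) ^ 3 := by
  simp only [Ew, WeierstrassCurve.c₄, WeierstrassCurve.b₂, WeierstrassCurve.b₄,
    WeierstrassCurve.b₆]
  push_cast
  ring

lemma zmod11 : ∀ d T : ZMod 11, d ≠ 0 →
    (20736 * d ^ 2 * T ^ 2 - 1772928 * d ^ 3 = 0 ↔ T ^ 2 = 3 * d) := by
  decide

lemma sq11 : ∀ d : ZMod 11, (∃ T, T ^ 2 = 3 * d) ↔ IsSquare d := by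
  have h : ∀ d : ZMod 11, (∃ T, T ^ 2 = 3 * d) ↔ ∃ c, d = c * c := by decide
  exact h

lemma split11 {F : Type} [Field F] (f : ZMod 11 ≃+* F) (D : ℤ) (hD : (D : ZMod 11) ≠ 0) :
    SplitNode (Ew F (-432 * D ^ 2) (8208 * D ^ 3)) ↔ IsSquare (D : ZMod 11) := by
  rw [← sq11]
  unfold SplitNode
  constructor
  · rintro ⟨T, hT⟩
    rw [node_eq] at hT
    refine ⟨f.symm T, (zmod11 _ _ hD).1 ?_⟩
    have := congrArg f.symm hT
    simp only [map_add, map_sub, map_mul, map_pow, map_ofNat, map_intCast, map_zero] at this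
    exact this
  · rintro ⟨T, hT⟩
    refine ⟨f T, ?_⟩
    rw [node_eq]
    have := congrArg f ((zmod11 _ _ hD).2 hT)
    simp only [map_add, map_sub, map_mul, map_pow, map_ofNat, map_intCast, map_zero] at this
    exact this

/-- **`11 ∤ D`: multiplicative reduction at `11`** -/
theorem loc11_mult {D : ℤ} (hD : ¬ (11 : ℤ) ∣ D) (k : ℕ) : LT D (11 ^ k) = jacobiSym D 11 ^ k := by
  have hp : Nat.Prime 11 := by norm_num
  have hpp : Prime ((11 : ℕ) : ℤ) := Nat.prime_iff_prime_int.1 hp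
  have hL := M2.pfLoc 11 hp
  obtain ⟨-, -, -, e3⟩ := M2.pfEul (-432 * D ^ 2) (8208 * D ^ 3)
  obtain ⟨-, f2, f3, -⟩ := e3 11 hp
  set R := (pl 11 hp).adicCompletionIntegers ℚ with hR
  set K := (pl 11 hp).adicCompletion ℚ with hK
  have hD' : ¬ ((11 : ℕ) : ℤ) ∣ D := by exact_mod_cast hD
  set W₁ : WeierstrassCurve R := Ew R (-432 * D ^ 2) (8208 * D ^ 3) with hW₁
  have hmap : (1 : VariableChange K) • WK K D = W₁.map (algebraMap R K) := by
    rw [one_smul, hW₁, map_Ew]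
    rfl
  have hc : IsUnit W₁.c₄ := by
    rw [hW₁, Ew_c₄]
    apply int_unit hL
    intro h1
    have h2 : (-48 * (-432 * D ^ 2) : ℤ) = 20736 * D ^ 2 := by ring
    rw [h2] at h1
    rcases hpp.dvd_or_dvd h1 with h3 | h3
    · norm_num at h3
    · exact hD' (hpp.dvd_of_dvd_pow h3)
  have hcz := hL.charZero
  have hΔe : W₁.Δ = ((-(2176782336 * 11) * D ^ 6 : ℤ) : R) := by
    rw [hW₁, Ew_Δ]
    congr 1
    ring
  have hD0 : D ≠ 0 := by
    rintro rfl
    exact hD (dvd_zero _)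
  have hΔ : W₁.Δ ≠ 0 := by
    rw [hΔe]
    have : (-(2176782336 * 11) * D ^ 6 : ℤ) ≠ 0 := mul_ne_zero (by norm_num) (pow_ne_zero _ hD0)
    exact_mod_cast this
  have hΔ' : ¬ IsUnit W₁.Δ := by
    rw [hΔe, mem_max hL]
    have : ((-(2176782336 * 11) * D ^ 6 : ℤ) : R) =
        ((11 : ℕ) : R) * ((-(2176782336 * 1) * D ^ 6 : ℤ) : R) := by
      push_cast
      ring
    rw [this]
    exact dvd_mul_right _ _
  have hloc := locMult (WK K D) 1 W₁ hmap hc hΔ hΔ'
  rw [← locP_eq] at hloc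
  -- the tangent directions
  have hFact : Fact (Nat.Prime 11) := ⟨hp⟩
  obtain ⟨f⟩ := res_equiv hL
  have hsplit : SplitNode (W₁.map (IsLocalRing.residue R)) ↔ IsSquare (D : ZMod 11) := by
    rw [hW₁, map_Ew]
    exact split11 f D (by
      intro h0
      rw [ZMod.intCast_zmod_eq_zero_iff_dvd] at h0
      exact hD' h0)
  have hjac : IsSquare (D : ZMod 11) ↔ jacobiSym D 11 = 1 := by
    rw [← jacobiSym.legendreSym.to_jacobiSym]
    exact (legendreSym.eq_one_iff 11 (by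
      intro h0
      rw [ZMod.intCast_zmod_eq_zero_iff_dvd] at h0
      exact hD' h0)).symm
  by_cases hs : IsSquare (D : ZMod 11)
  · rw [if_pos (hsplit.2 hs)] at hloc
    have := f2 hloc k
    rw [hjac.1 hs, one_pow]
    exact this
  · rw [if_neg (fun h1 => hs (hsplit.1 h1))] at hloc
    have := f3 hloc k
    have h1 : jacobiSym D 11 = -1 := by
      have h2 := jac_sq hp hD'
      have h3 : jacobiSym D 11 ≠ 1 := fun h3 => hs (hjac.2 h3)
      rcases sq_eq_one_iff.1 h2 with h4 | h4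
      · exact absurd h4 h3
      · exact h4
    rw [h1]
    exact this

theorem st7_3 : St7 3 :=
  st7_three (fun _ _ h => loc3_good h) (fun _ hF h => loc3_add hF h)

theorem st7_11 : St7 11 :=
  st7_eleven (fun _ _ h k => loc11_mult h k) (fun _ hF h => loc11_add hF h)

end Vale.Agent.P004H.H924.E3

namespace Vale.Agent.P004H.H924.E3

open P004G P004G.ML Vale.Agent.P004H.H742

theorem st7_2 : St7 2 :=
  st7_two (fun _ _ h => loc2_good h) (fun _ hF h => loc2_add hF h)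

/-- The coefficients of Mathlib's L-function of the twist by D are those of X_0(11) times the
Kronecker symbol. -/
theorem r7 (A : ℕ → ℤ) (hA : Co A) (D : ℤ) (hD : Fund1 D) (n : ℕ) :
    LA (-432 * D ^ 2) (8208 * D ^ 3) n = A n * kron D n :=
  all st7_2 st7_3 st7_11 A hA D hD n

end Vale.Agent.P004H.H924.E3
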