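import Vale.Agent.P004H.H924.E3a

/-!
# P004H/H924: interface and assembly for y^2 + y = x^3 - x^2 + (0) x + (0)
-/

open WeierstrassCurve Polynomial P004G P004G.ML

namespace Vale.Agent.P004H.H924.E3

open Vale.Agent.P004H.H742

/-- the number of affine points of `y² + y = x³ - x² + (0) x + (0)` over `ℤ / p` -/
noncomputable def cnt (p : ℕ) : ℕ :=
  Nat.card {q : ZMod p × ZMod p // q.2 ^ 2 + q.2 = q.1 ^ 3 - q.1 ^ 2}

/-- `A` is the sequence of Dirichlet coefficients of `X_0(11)` -/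
structure Co (A : ℕ → ℤ) : Prop where
  zero : A 0 = 0
  one : A 1 = 1
  mul : ∀ m n : ℕ, m.Coprime n → A (m * n) = A m * A n
  good : ∀ p : ℕ, p.Prime → p ≠ 11 → GoodAt A p
  el : ∀ k : ℕ, A (11 ^ k) = 1
  tr : ∀ p : ℕ, p.Prime → p ≠ 11 → A p = p - cnt p

/-- the coefficients of Mathlib's `L`-function of the twist by `D` -/
noncomputable def LT (D : ℤ) (n : ℕ) : ℤ := LA (-432 * D ^ 2) (8208 * D ^ 3) n

/-- the local statement at `p` -/
def St7 (p : ℕ) : Prop := ∀ A : ℕ → ℤ, Co A → ∀ D : ℤ, Fund1 D → ∀ k : ℕ,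
  LT D (p ^ k) = A (p ^ k) * kron D (p ^ k)

/-! ### the trace over the residue field -/

lemma cast_ne_zero_of {k : Type} [Field k] {p : ℕ} (e : ZMod p ≃+* k) {n : ℕ}
    (h : ¬ p ∣ n) : (n : k) ≠ 0 := by
  intro h1
  apply h
  rw [← ZMod.natCast_eq_zero_iff]
  apply e.injective
  rw [map_natCast, h1, map_zero]

lemma affCard_short {k : Type} [Field k] {p : ℕ} (hp : p.Prime) (hp5 : 5 ≤ p)
    (hk : Nat.card k = p) : affCard (MG.Ew k (-432) (8208)) = cnt p := by
  have : Fact p.Prime := ⟨hp⟩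
  have hfin : Finite k := Nat.finite_of_card_ne_zero (by rw [hk]; exact hp.ne_zero)
  have hF : Fintype k := Fintype.ofFinite k
  have hcard : Fintype.card k = p := by rw [← Nat.card_eq_fintype_card, hk]
  have e : ZMod p ≃+* k := ZMod.ringEquivOfPrime k hp hcard
  have h2 : ((2 : ℕ) : k) ≠ 0 := by
    apply cast_ne_zero_of e
    intro h
    have := Nat.le_of_dvd (by norm_num) h
    omega
  have h3 : ((3 : ℕ) : k) ≠ 0 := by
    apply cast_ne_zero_of e
    intro h
    have := Nat.le_of_dvd (by norm_num) h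
    omega
  push_cast at h2 h3
  have h36 : (36 : k) ≠ 0 := by
    have : (36 : k) = 2 ^ 2 * 3 ^ 2 := by norm_num
    rw [this]
    exact mul_ne_zero (pow_ne_zero _ h2) (pow_ne_zero _ h3)
  have h216 : (216 : k) ≠ 0 := by
    have : (216 : k) = 2 ^ 3 * 3 ^ 3 := by norm_num
    rw [this]
    exact mul_ne_zero (pow_ne_zero _ h2) (pow_ne_zero _ h3)
  have key : ∀ x y : k, (216 * y + 108) ^ 2 - ((36 * x - 12) ^ 3 + (-432) * (36 * x - 12) +
      (8208)) = 46656 * (y ^ 2 + y - (x ^ 3 - x ^ 2)) := by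
    intro x y
    ring
  have h46656 : (46656 : k) ≠ 0 := by
    have : (46656 : k) = 216 ^ 2 := by norm_num
    rw [this]
    exact pow_ne_zero _ h216
  unfold affCard cnt
  symm
  refine Nat.card_eq_of_bijective
    (fun q => ⟨(36 * e q.1.1 - 12, 216 * e q.1.2 + 108), ?_⟩) ⟨?_, ?_⟩
  · obtain ⟨⟨x, y⟩, h⟩ := q
    have h' := congrArg e h
    simp only [map_add, map_sub, map_mul, map_pow, map_ofNat] at h'
    simp only [MG.Ew]
    push_cast
    linear_combination key (e x) (e y) + 46656 * h'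
  · rintro ⟨⟨x, y⟩, h⟩ ⟨⟨x', y'⟩, h'⟩ he
    simp only [Subtype.mk.injEq, Prod.mk.injEq] at he
    obtain ⟨h5, h6⟩ := he
    have h7 : e x = e x' := mul_left_cancel₀ h36 (by linear_combination h5)
    have h8 : e y = e y' := mul_left_cancel₀ h216 (by linear_combination h6)
    rw [Subtype.mk.injEq, Prod.mk.injEq]
    exact ⟨e.injective h7, e.injective h8⟩
  · rintro ⟨⟨X, Y⟩, h⟩
    simp only [MG.Ew] at h
    push_cast at h
    refine ⟨⟨(e.symm ((X + 12) / 36), e.symm ((Y - 108) / 216)), ?_⟩, ?_⟩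
    · apply e.injective
      simp only [map_add, map_sub, map_mul, map_pow, map_ofNat, RingEquiv.apply_symm_apply]
      have hk := key ((X + 12) / 36) ((Y - 108) / 216)
      have e1 : 36 * ((X + 12) / 36) - 12 = X := by field_simp; ring
      have e2 : 216 * ((Y - 108) / 216) + 108 = Y := by field_simp; ring
      rw [e1, e2] at hk
      have h9 : (46656 : k) * (((Y - 108) / 216) ^ 2 + (Y - 108) / 216 -
          (((X + 12) / 36) ^ 3 - ((X + 12) / 36) ^ 2)) = 0 := by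
        rw [← hk]
        linear_combination h
      have h10 := (mul_eq_zero.1 h9).resolve_left h46656
      linear_combination h10
    · apply Subtype.ext
      apply Prod.ext
      · change 36 * e (e.symm ((X + 12) / 36)) - 12 = X
        rw [RingEquiv.apply_symm_apply]
        field_simp
        ring
      · change 216 * e (e.symm ((Y - 108) / 216)) + 108 = Y
        rw [RingEquiv.apply_symm_apply]
        field_simp
        ring

/-! ### `p ≥ 5` -/

lemma bdE_eq : bdE (-432) (8208) = 2 * 3 * 11 * (2 ^ 8 * 3 ^ 11 * 11 ^ 0) := by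
  norm_num [bdE]

lemma not_dvd_bdE {p : ℕ} (hp : p.Prime) (hp5 : 5 ≤ p) (h11 : p ≠ 11) :
    ¬ p ∣ bdE (-432) (8208) := by
  rw [bdE_eq]
  intro h
  have h2 : ¬ p ∣ 2 := fun h => by have := Nat.le_of_dvd (by norm_num) h; omega
  have h3 : ¬ p ∣ 3 := fun h => by have := Nat.le_of_dvd (by norm_num) h; omega
  have h4 : ¬ p ∣ 11 := fun h => h11 ((Nat.prime_dvd_prime_iff_eq hp (by norm_num)).1 h)
  simp only [hp.dvd_mul] at h
  rcases h with ((h | h) | h) | ((h | h) | h)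
  · exact h2 h
  · exact h3 h
  · exact h4 h
  · exact h2 (hp.dvd_of_dvd_pow h)
  · exact h3 (hp.dvd_of_dvd_pow h)
  · exact h4 (hp.dvd_of_dvd_pow h)

lemma allMLG : StMLG := MG.pfMLG M1.pfLocGood M1.pfLocAdd M1.pfLocShape M2.pfLoc M2.pfEul

/-- the trace of Mathlib's `L`-function at a good prime `p ≥ 5` -/
lemma LA_prime {p : ℕ} (hp : p.Prime) (hp5 : 5 ≤ p) (h11 : p ≠ 11) :
    LA (-432) (8208) p = p - cnt p := by
  obtain ⟨-, -, -, e3⟩ := M2.pfEul (-432) (8208)
  obtain ⟨-, -, -, f4⟩ := e3 p hp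
  have hL := M2.pfLoc p hp
  have hb := not_dvd_bdE hp hp5 h11
  have hpd : ¬ (p : ℤ) ∣ 4 * (-432) ^ 3 + 27 * (8208) ^ 2 := by
    intro h1
    exact hb (Dvd.dvd.mul_left (Int.natCast_dvd.1 h1) _)
  have h1 := MG.good (K := (pl p hp).adicCompletion ℚ) M1.pfLocGood hL (by omega)
    (-432) (8208) hpd
  have h2 : locP (-432) (8208) p hp =
      (MG.Ew ((pl p hp).adicCompletion ℚ) (-432) (8208)).localPolynomial
        ((pl p hp).adicCompletionIntegers ℚ) := by
    unfold locP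
    rw [MG.Ec_map]
  rw [← h2, affCard_short hp hp5 hL.card] at h1
  exact (f4 _ h1).1

theorem st7_big {p : ℕ} (hp : p.Prime) (hp5 : 5 ≤ p) (h11 : p ≠ 11) : St7 p := by
  intro A hA D hD k
  obtain ⟨-, hg, hc⟩ := allMLG (-432) (8208) (by norm_num) D hD
  have hb := not_dvd_bdE hp hp5 h11
  have hcop : (p ^ k).Coprime (bdE (-432) (8208)) :=
    Nat.Coprime.pow_left _ ((Nat.Prime.coprime_iff_not_dvd hp).2 hb)
  have h1 := hc _ hcop
  unfold LT
  rw [h1]
  have hodd : p % 2 = 1 := by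
    rcases hp.eq_two_or_odd with h | h
    · omega
    · exact h
  have hodd' : (p ^ k) % 2 = 1 := by
    rw [Nat.pow_mod, hodd]
    simp
  rw [kron_odd D hodd']
  congr 1
  obtain ⟨-, e1, -, -⟩ := M2.pfEul (-432) (8208)
  refine MQ.pow_of_good e1 hA.one (hg p hp hb) (hA.good p hp h11) ?_ k
  rw [LA_prime hp hp5 h11, hA.tr p hp h11]

/-- **The assembly**: the `L`-function of the twist by `D` is the twist of `A`. -/
theorem all (h2 : St7 2) (h3 : St7 3) (h11 : St7 11) (A : ℕ → ℤ) (hA : Co A) (D : ℤ)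
    (hD : Fund1 D) (n : ℕ) :
    LA (-432 * D ^ 2) (8208 * D ^ 3) n = A n * kron D n := by
  have hp : ∀ p : ℕ, p.Prime → ∀ k : ℕ, LT D (p ^ k) = A (p ^ k) * kron D (p ^ k) := by
    intro p hp k
    rcases eq_or_ne p 2 with rfl | h
    · exact h2 A hA D hD k
    rcases eq_or_ne p 3 with rfl | h'
    · exact h3 A hA D hD k
    rcases eq_or_ne p 11 with rfl | h''
    · exact h11 A hA D hD k
    · have := hp.two_le
      have h4 : p ≠ 4 := by rintro rfl; exact absurd hp (by norm_num)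
      exact st7_big hp (by omega) h'' A hA D hD k
  obtain ⟨e0, e1, e2, -⟩ := M2.pfEul (-432 * D ^ 2) (8208 * D ^ 3)
  induction n using Nat.recOnPosPrimePosCoprime with
  | prime_pow p n hpp hn => exact hp p hpp n
  | zero => rw [e0, hA.zero, zero_mul]
  | one => rw [e1, hA.one, kron_one, one_mul]
  | coprime a b ha hb hab iha ihb =>
    rw [e2 _ _ hab, iha, ihb, hA.mul _ _ hab, kron_mul D (by omega) (by omega)]
    ring

/-! ### adapters for the local statements at `2`, `3`, `11` -/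

lemma cnt_two : cnt 2 = 4 := by
  unfold cnt
  rw [Nat.card_eq_fintype_card]
  decide

lemma cnt_three : cnt 3 = 4 := by
  unfold cnt
  rw [Nat.card_eq_fintype_card]
  decide

lemma LT_one (D : ℤ) : LT D 1 = 1 := (M2.pfEul (-432 * D ^ 2) (8208 * D ^ 3)).2.1

/-- twisting a good factor by a sign -/
lemma good_sign {X A : ℕ → ℤ} {p : ℕ} {ε : ℤ} (hε : ε ^ 2 = 1) (hX1 : X 1 = 1) (hA1 : A 1 = 1)
    (hX : GoodAt X p) (hA : GoodAt A p) (h : X p = A p * ε) (k : ℕ) :
    X (p ^ k) = A (p ^ k) * ε ^ k := by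
  have key : ∀ k : ℕ, X (p ^ k) = A (p ^ k) * ε ^ k ∧
      X (p ^ (k + 1)) = A (p ^ (k + 1)) * ε ^ (k + 1) := by
    intro k
    induction k with
    | zero => simp [hX1, hA1, h]
    | succ k ih =>
      refine ⟨ih.2, ?_⟩
      rw [hX k, hA k, ih.1, ih.2, h]
      linear_combination ((p : ℤ) * A (p ^ k) * ε ^ k) * hε
  exact (key k).1

lemma fund_cases {D : ℤ} (hD : Fund1 D) : D % 4 = 1 ∨ (2 : ℤ) ∣ D := by
  rcases hD with rfl | ⟨-, ⟨h, -⟩ | ⟨d, rfl, -, -⟩⟩
  · left; norm_num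
  · exact Or.inl h
  · right; exact ⟨2 * d, by ring⟩

theorem st7_two
    (hg : ∀ D : ℤ, Fund1 D → D % 4 = 1 →
      GoodAt (LT D) 2 ∧ LT D 2 = -2 * (if D % 8 = 1 then 1 else -1))
    (ha : ∀ D : ℤ, Fund1 D → (2 : ℤ) ∣ D → TrivAt (LT D) 2) : St7 2 := by
  intro A hA D hD k
  rw [kron_two_pow]
  rcases fund_cases hD with h | h
  · obtain ⟨g1, g2⟩ := hg D hD h
    have hk : k2 D = if D % 8 = 1 then 1 else -1 := by
      unfold k2
      rw [if_neg (by omega)]
    have hA2 : A 2 = -2 := by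
      rw [hA.tr 2 Nat.prime_two (by norm_num), cnt_two]
      norm_num
    refine good_sign ?_ (LT_one D) hA.one g1 (hA.good 2 Nat.prime_two (by norm_num)) ?_ k
    · rw [hk]; split_ifs <;> norm_num
    · rw [g2, hk, hA2]
  · have hk : k2 D = 0 := by
      unfold k2
      rw [if_pos (by omega)]
    cases k with
    | zero => simp [LT_one, hA.one]
    | succ k => rw [ha D hD h k, hk]; simp

lemma jac_zero {D : ℤ} {p : ℕ} (hp : p.Prime) (h : (p : ℤ) ∣ D) : jacobiSym D p = 0 := by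
  have : NeZero p := ⟨hp.ne_zero⟩
  rw [jacobiSym.eq_zero_iff_not_coprime]
  intro h5
  have h6 : (p : ℤ) ∣ (Int.gcd D p : ℤ) := Int.dvd_coe_gcd h dvd_rfl
  rw [h5] at h6
  exact (Nat.prime_iff_prime_int.1 hp).not_isUnit (isUnit_of_dvd_one (by simpa using h6))

lemma jac_sq {D : ℤ} {p : ℕ} (hp : p.Prime) (h : ¬ (p : ℤ) ∣ D) : jacobiSym D p ^ 2 = 1 := by
  apply jacobiSym.sq_one
  rw [Int.gcd_comm]
  exact Int.isCoprime_iff_gcd_eq_one.1
    ((Prime.coprime_iff_not_dvd (Nat.prime_iff_prime_int.1 hp)).2 h)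

lemma kron_odd_pow (D : ℤ) {p : ℕ} (hp : p % 2 = 1) (k : ℕ) :
    kron D (p ^ k) = jacobiSym D p ^ k := by
  rw [kron_pow D (by omega) k, kron_odd D hp]

theorem st7_three
    (hg : ∀ D : ℤ, Fund1 D → ¬ (3 : ℤ) ∣ D → GoodAt (LT D) 3 ∧ LT D 3 = - jacobiSym D 3)
    (ha : ∀ D : ℤ, Fund1 D → (3 : ℤ) ∣ D → TrivAt (LT D) 3) : St7 3 := by
  intro A hA D hD k
  rw [kron_odd_pow D (by norm_num)]
  by_cases h : (3 : ℤ) ∣ D
  · have h0 : jacobiSym D 3 = 0 := jac_zero Nat.prime_three h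
    cases k with
    | zero => simp [LT_one, hA.one]
    | succ k => rw [ha D hD h k, h0]; simp
  · obtain ⟨g1, g2⟩ := hg D hD h
    have hA3 : A 3 = -1 := by
      rw [hA.tr 3 Nat.prime_three (by norm_num), cnt_three]
      norm_num
    refine good_sign (jac_sq Nat.prime_three h) (LT_one D) hA.one g1
      (hA.good 3 Nat.prime_three (by norm_num)) ?_ k
    rw [g2, hA3]
    ring

theorem st7_eleven
    (hg : ∀ D : ℤ, Fund1 D → ¬ (11 : ℤ) ∣ D → ∀ k : ℕ, LT D (11 ^ k) = jacobiSym D 11 ^ k)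
    (ha : ∀ D : ℤ, Fund1 D → (11 : ℤ) ∣ D → TrivAt (LT D) 11) : St7 11 := by
  intro A hA D hD k
  rw [kron_odd_pow D (by norm_num), hA.el, one_mul]
  by_cases h : (11 : ℤ) ∣ D
  · have h0 : jacobiSym D 11 = 0 := jac_zero (by norm_num) h
    cases k with
    | zero => simp [LT_one]
    | succ k => rw [ha D hD h k, h0]; simp
  · exact hg D hD h k

end Vale.Agent.P004H.H924.E3
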