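import Vale.Agent.P004H.H924.E2d
import Vale.Agent.P004H.H924.E3d
import Vale.Agent.P004H.H204.Tr
import Vale.Agent.P004H.H666.Iso2

/-!
# P004H/H924: the two curves isogenous to X_0(11) have the same L-functions, with all twists
-/

open P004G P004G.ML

namespace Vale.Agent.P004H.H924

theorem st112 : H666.St112 := fun D hD n =>
  E2.iso (fun _ hp h11 => H204.tr2 hp h11) D hD n

theorem st113 : H666.St113 := fun D hD n =>
  E3.iso (fun _ hp h11 => H204.tr3 hp h11) D hD n

end Vale.Agent.P004H.H924
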